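import Crest.Agent.R189.B6.Defs

/-! # Row 189, B6: the coins. -/

set_option autoImplicit false

namespace Crest.Agent.R189

open Equiv Classical
open scoped Pointwise

theorem cw_nonneg {N : Type} [Fintype N] (θ : N → ℝ) (ω : N → Bool) : 0 ≤ cw θ ω :=
  Finset.prod_nonneg fun c _ => by unfold bern; positivity

theorem coina_bern (a : ℝ) : ∑ v, bern a v = 1 := by
  simp [bern]

theorem sum_cw {N : Type} [Fintype N] (θ : N → ℝ) : ∑ ω : N → Bool, cw θ ω = 1 := by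
  unfold cw
  rw [← Fintype.piFinset_univ, ← Finset.prod_univ_sum (fun _ => Finset.univ) fun c v => bern (θ c) v]
  simp only [coina_bern, Finset.prod_const_one]

theorem coina_sum {N : Type} [Fintype N] [DecidableEq N] (θ : N → ℝ) : ∑ ω : N → Bool, cw θ ω = 1 := by
  convert sum_cw θ

theorem coina_marg {N : Type} [Fintype N] (θ : N → ℝ) (A : Finset N) (F : (N → Bool) → ℝ)
    (hA : ∀ ω ω', (∀ c ∈ A, ω c = ω' c) → F ω = F ω') :
    ∑ ω, cw θ ω * F ω = ∑ η : A → Bool, cw (fun c : A => θ c) η * F (look A false η) := by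
  rw [← (Equiv.piEquivPiSubtypeProd (· ∈ A) fun _ => Bool).symm.sum_comp, Fintype.sum_prod_type]
  refine Finset.sum_congr rfl fun η _ => ?_
  have h1 : ∀ ζ : {c // c ∉ A} → Bool, cw θ ((Equiv.piEquivPiSubtypeProd (· ∈ A) fun _ => Bool).symm (η, ζ)) *
      F ((Equiv.piEquivPiSubtypeProd (· ∈ A) fun _ => Bool).symm (η, ζ)) =
      cw (fun c : A => θ c) η * F (look A false η) * cw (fun c : {c // c ∉ A} => θ c) ζ := fun ζ => by
    rw [hA _ (look A false η) fun c hc => by simp [look, hc], mul_right_comm]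
    congr 1
    unfold cw
    rw [← Fintype.prod_subtype_mul_prod_subtype (· ∈ A)]
    congr 1
    · exact Finset.prod_congr (by ext; simp) fun c _ => by simp
    · exact Finset.prod_congr rfl fun c _ => by simp [c.2]
  simp only [h1]
  rw [← Finset.mul_sum, coina_sum, mul_one]

theorem coina_hell {a b : ℝ} (ha : a ∈ Set.Icc 0 (Real.pi / 2)) (hb : b ∈ Set.Icc 0 (Real.pi / 2)) :
    ∑ v, (Real.sqrt (bern a v) - Real.sqrt (bern b v)) ^ 2 ≤ (a - b) ^ 2 := by
  have hs : ∀ {x : ℝ}, x ∈ Set.Icc 0 (Real.pi / 2) → 0 ≤ Real.sin x := fun hx =>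
    Real.sin_nonneg_of_nonneg_of_le_pi hx.1 (by linarith [hx.2, Real.pi_pos])
  have hc : ∀ {x : ℝ}, x ∈ Set.Icc 0 (Real.pi / 2) → 0 ≤ Real.cos x := fun hx =>
    Real.cos_nonneg_of_neg_pi_div_two_le_of_le (by linarith [hx.1, Real.pi_pos]) hx.2
  have h1 := Real.one_sub_sq_div_two_le_cos (x := a - b)
  rw [Real.cos_sub] at h1
  simp only [Fintype.sum_bool, bern, if_true, Bool.false_eq_true, if_false, Real.sqrt_sq (hs ha), Real.sqrt_sq (hs hb),
    Real.sqrt_sq (hc ha), Real.sqrt_sq (hc hb)]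
  nlinarith [Real.sin_sq_add_cos_sq a, Real.sin_sq_add_cos_sq b]

/-- Hellinger bound when `F` depends only on the coins in `A`.  Recipe: first (marginalisation) `E_θ' F = E_θ'' F` with
`θ'' = θ'` on `A`, `θ` off `A` (`Equiv.piEquivPiSubtypeProd`, or change one coordinate at a time); then `hellinger_pi` with
`√(sin²) = sin`, `(sin a - sin b)² + (cos a - cos b)² = 2 - 2 cos (a - b) ≤ (a - b)²` (`Real.one_sub_sq_div_two_le_cos`). -/
theorem coin_bound {N : Type} [Fintype N] (θ θ' : N → ℝ) (hθ : ∀ c, θ c ∈ Set.Icc 0 (Real.pi / 2))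
    (hθ' : ∀ c, θ' c ∈ Set.Icc 0 (Real.pi / 2)) (A : Finset N) (F : (N → Bool) → ℝ) (hF : ∀ ω, |F ω| ≤ 1)
    (hA : ∀ ω ω', (∀ c ∈ A, ω c = ω' c) → F ω = F ω') :
    |∑ ω, cw θ ω * F ω - ∑ ω, cw θ' ω * F ω| ≤ 2 * Real.sqrt (∑ c ∈ A, (θ c - θ' c) ^ 2) := by
  rw [coina_marg θ A F hA, coina_marg θ' A F hA]
  refine (hellinger_pi (V := fun _ : A => Bool) (fun c v => bern (θ c) v) (fun c v => bern (θ' c) v)
    (fun c v => by unfold bern; positivity) (fun c v => by unfold bern; positivity) (fun c => coina_bern _)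
    (fun c => coina_bern _) (fun η => F (look A false η)) fun η => hF _).trans ?_
  refine mul_le_mul_of_nonneg_left (Real.sqrt_le_sqrt ?_) zero_le_two
  rw [← Finset.sum_coe_sort A]
  exact Finset.sum_le_sum fun c _ => coina_hell (hθ c) (hθ' c)

/-- a partial injection of a finite set extends to a permutation -/
theorem exists_perm_ext {P N : Type} (𝒩 : Finset N) (R : Set P) (n n' : P → N) (h : ∀ z ∈ R, n z ∈ 𝒩)
    (h' : ∀ z ∈ R, n' z ∈ 𝒩) (hi : ∀ z ∈ R, ∀ z' ∈ R, n z = n z' ↔ n' z = n' z') :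
    ∃ σ : Perm 𝒩, ∀ z (hz : z ∈ R), σ ⟨n z, h z hz⟩ = ⟨n' z, h' z hz⟩ := by
  let S := {c : 𝒩 // ∃ z ∈ R, n z = c.1}
  let φ : S → 𝒩 := fun c => ⟨n' c.2.choose, h' _ c.2.choose_spec.1⟩
  have hφ : Function.Injective φ := by
    intro c c' hc
    have h1 : n' c.2.choose = n' c'.2.choose := congrArg Subtype.val hc
    have h2 := (hi _ c.2.choose_spec.1 _ c'.2.choose_spec.1).2 h1
    rw [c.2.choose_spec.2, c'.2.choose_spec.2] at h2
    exact Subtype.ext (Subtype.ext h2)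
  obtain ⟨σ, hσ⟩ := Equiv.Perm.exists_extending_pair (f := (Subtype.val : S → 𝒩)) (g := φ)
    Subtype.val_injective hφ
  refine ⟨σ, fun z hz => ?_⟩
  let c : S := ⟨⟨n z, h z hz⟩, z, hz, rfl⟩
  refine (hσ c).trans (Subtype.ext ?_)
  exact (hi _ c.2.choose_spec.1 _ hz).1 c.2.choose_spec.2

theorem abs_Phi_le {P N₀ : Type} (W : Set P) (col : P → ℤ) (a b : ℤ) (𝒩 : Finset (ℤ × N₀)) (θ : ℤ → ℝ) (lab : P → N₀)
    (f : Set P → ℝ) (hf : ∀ E, |f E| ≤ 1) : |Phi W col a b 𝒩 θ lab f| ≤ 1 := by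
  refine (Finset.abs_sum_le_sum_abs _ _).trans (le_trans (Finset.sum_le_sum fun ω _ => ?_)
    (coina_sum fun c : 𝒩 => θ c.1.1).le)
  rw [abs_mul, abs_of_nonneg (cw_nonneg _ _)]
  exact mul_le_of_le_one_right (cw_nonneg _ _) (hf _)

theorem coinb_bern_ne {N : Type} [Fintype N] {θ : N → ℝ} {ω : N → Bool} (h : cw θ ω ≠ 0) (c : N) :
    (θ c = 0 → ω c = false) ∧ (θ c = Real.pi / 2 → ω c = true) := by
  have h1 : bern (θ c) (ω c) ≠ 0 := Finset.prod_ne_zero_iff.1 h c (Finset.mem_univ c)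
  constructor
  · intro h0
    rw [h0] at h1
    cases hc : ω c
    · rfl
    · rw [hc] at h1; simp [bern] at h1
  · intro h0
    rw [h0] at h1
    cases hc : ω c
    · rw [hc] at h1; simp [bern] at h1
    · rfl

theorem coinb_cw_perm {N : Type} [Fintype N] (θ : N → ℝ) (ω : N → Bool) (σ : Perm N) :
    cw θ (fun c => ω (σ c)) = cw (fun c => θ (σ.symm c)) ω := by
  unfold cw
  rw [← Equiv.prod_comp σ (fun c => bern (θ (σ.symm c)) (ω c))]
  simp

/-- one step: `g` carries the naming `lab` to the naming `lab'`.  Recipe: `σ` from `exists_perm_ext`; if `cw θ ω ≠ 0`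
(coins at angle `0` are `false`, at angle `π/2` are `true`) then `g • ES lab ω = ES lab' (ω ∘ σ⁻¹)`; reindex the sum, use
`coin_bound` with `A` = the `lab'`-names of the points of `W` in columns `[a, b]`. -/
theorem coin_step {P N₀ : Type} (W : Set P) (col : P → ℤ) (a b D : ℤ) (𝒩 : Finset (ℤ × N₀)) (θ δ : ℤ → ℝ)
    (g : Perm P) (hD0 : 0 ≤ D) (hab : a + D ≤ b) (hW : ∀ z, g z ∈ W ↔ z ∈ W) (hD : ∀ z ∈ W, |col (g z) - col z| ≤ D)
    (hθ : ∀ i, θ i ∈ Set.Icc 0 (Real.pi / 2)) (hθ0 : ∀ i, i ≤ a + D → θ i = 0)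
    (hθ1 : ∀ i, b - D ≤ i → θ i = Real.pi / 2) (hδ : ∀ i i', |i - i'| ≤ D → |θ i - θ i'| ≤ δ i)
    (lab lab' : P → N₀)
    (hm : ∀ z ∈ W, a - D ≤ col z → col z ≤ b + D → (col z, lab z) ∈ 𝒩 ∧ (col (g z), lab' (g z)) ∈ 𝒩)
    (hi : ∀ z ∈ W, ∀ z' ∈ W, a - D ≤ col z → col z ≤ b + D → a - D ≤ col z' → col z' ≤ b + D →
      ((col z, lab z) = (col z', lab z') ↔ (col (g z), lab' (g z)) = (col (g z'), lab' (g z'))))
    (f : Set P → ℝ) (hf : ∀ E, |f E| ≤ 1) :
    |Phi W col a b 𝒩 θ lab (fun E => f (g • E)) - Phi W col a b 𝒩 θ lab' f| ≤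
      2 * Real.sqrt (∑ c ∈ 𝒩, δ c.1 ^ 2) := by
  obtain ⟨σ, hσ⟩ := exists_perm_ext 𝒩 {z | z ∈ W ∧ a - D ≤ col z ∧ col z ≤ b + D} (fun z => (col z, lab z))
    (fun z => (col (g z), lab' (g z))) (fun z hz => (hm z hz.1 hz.2.1 hz.2.2).1)
    (fun z hz => (hm z hz.1 hz.2.1 hz.2.2).2)
    (fun z hz z' hz' => hi z hz.1 z' hz'.1 hz.2.1 hz.2.2 hz'.2.1 hz'.2.2)
  have hσ' : ∀ z (hz : z ∈ W) (h1 : a - D ≤ col z) (h2 : col z ≤ b + D),
      σ.symm ⟨(col (g z), lab' (g z)), (hm z hz h1 h2).2⟩ = ⟨(col z, lab z), (hm z hz h1 h2).1⟩ := by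
    intro z hz h1 h2
    rw [Equiv.symm_apply_eq]
    exact (hσ z ⟨hz, h1, h2⟩).symm
  have key : ∀ ω : 𝒩 → Bool, cw (fun c : 𝒩 => θ c.1.1) ω ≠ 0 →
      g • ES W col a b 𝒩 lab ω = ES W col a b 𝒩 lab' (fun c => ω (σ.symm c)) := by
    intro ω hω
    ext w
    obtain ⟨z, rfl⟩ := g.surjective w
    have hmem : g z ∈ g • ES W col a b 𝒩 lab ω ↔ z ∈ ES W col a b 𝒩 lab ω :=
      Set.smul_mem_smul_set_iff (a := g) (x := z)
    rw [hmem]
    simp only [ES, Set.mem_ofPred_eq, hW]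
    refine and_congr_right fun hz => ?_
    have hd := abs_le.1 (hD z hz)
    by_cases hR : a - D ≤ col z ∧ col z ≤ b + D
    · have e1 : look 𝒩 false ω (col z, lab z) = ω ⟨(col z, lab z), (hm z hz hR.1 hR.2).1⟩ := by
        unfold look; rw [dif_pos (hm z hz hR.1 hR.2).1]
      have e2 : look 𝒩 false (fun c => ω (σ.symm c)) (col (g z), lab' (g z)) =
          ω ⟨(col z, lab z), (hm z hz hR.1 hR.2).1⟩ := by
        unfold look; rw [dif_pos (hm z hz hR.1 hR.2).2]; exact congrArg ω (hσ' z hz hR.1 hR.2)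
      rw [e1, e2]
      have hb := coinb_bern_ne hω ⟨(col z, lab z), (hm z hz hR.1 hR.2).1⟩
      have hf0 := fun h => hb.1 (hθ0 (col z) h)
      have ht0 := fun h => hb.2 (hθ1 (col z) h)
      generalize ω ⟨(col z, lab z), (hm z hz hR.1 hR.2).1⟩ = v at hf0 ht0
      cases v
      · have h3 : col z < b - D := by
          by_contra h3
          exact absurd (ht0 (by omega)) (by simp)
        split_ifs <;> (try simp only [Bool.false_eq_true, false_iff, iff_false, true_iff, iff_true]) <;> omega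
      · have h3 : a + D < col z := by
          by_contra h3
          exact absurd (hf0 (by omega)) (by simp)
        split_ifs <;> (try simp only [Bool.false_eq_true, false_iff, iff_false, true_iff, iff_true]) <;> omega
    · rw [if_neg (by omega), if_neg (by omega)]
      omega
  let A : Finset 𝒩 := Finset.univ.filter fun c => ∃ w ∈ W, a ≤ col w ∧ col w ≤ b ∧ c.1 = (col w, lab' w)
  have hb := coin_bound (fun c : 𝒩 => θ (σ.symm c).1.1) (fun c : 𝒩 => θ c.1.1) (fun c => hθ _) (fun c => hθ _) A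
    (fun ω => f (ES W col a b 𝒩 lab' ω)) (fun ω => hf _) (by
      intro ω ω' hω
      have : ES W col a b 𝒩 lab' ω = ES W col a b 𝒩 lab' ω' := by
        ext w
        simp only [ES, Set.mem_ofPred_eq]
        refine and_congr_right fun hw => ?_
        split_ifs with h1
        · unfold look
          split_ifs with h2
          · rw [hω ⟨_, h2⟩ (Finset.mem_filter.2 ⟨Finset.mem_univ _, w, hw, h1.1, h1.2, rfl⟩)]
          · rfl
        · rfl
      simp only [this])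
  have e1 : Phi W col a b 𝒩 θ lab (fun E => f (g • E)) =
      ∑ ω : 𝒩 → Bool, cw (fun c : 𝒩 => θ (σ.symm c).1.1) ω * f (ES W col a b 𝒩 lab' ω) := by
    unfold Phi
    refine Fintype.sum_equiv (Equiv.arrowCongr σ (Equiv.refl Bool)) _ _ fun ω => ?_
    have e : (Equiv.arrowCongr σ (Equiv.refl Bool)) ω = fun c => ω (σ.symm c) := rfl
    rw [e, ← coinb_cw_perm (fun c : 𝒩 => θ c.1.1) _ σ]
    simp only [Equiv.symm_apply_apply]
    by_cases hω : cw (fun c : 𝒩 => θ c.1.1) ω = 0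
    · rw [hω, zero_mul, zero_mul]
    · rw [key ω hω]
  rw [e1]
  have hs : ∑ c ∈ A, (θ (σ.symm c).1.1 - θ c.1.1) ^ 2 ≤ ∑ c ∈ 𝒩, δ c.1 ^ 2 := by
    rw [← Finset.sum_coe_sort 𝒩 (fun c => δ c.1 ^ 2)]
    refine le_trans (Finset.sum_le_sum fun c hc => ?_)
      (Finset.sum_le_sum_of_subset_of_nonneg (Finset.subset_univ A) fun c _ _ => sq_nonneg _)
    obtain ⟨w, hw, h1, h2, h3⟩ := (Finset.mem_filter.1 hc).2
    obtain ⟨z, rfl⟩ := g.surjective w
    have hz := (hW z).1 hw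
    have hd := abs_le.1 (hD z hz)
    have hc' : c = ⟨(col (g z), lab' (g z)), (hm z hz (by omega) (by omega)).2⟩ := Subtype.ext h3
    rw [hc', hσ' z hz (by omega) (by omega)]
    have := hδ (col (g z)) (col z) (hD z hz)
    rw [abs_sub_comm] at this
    exact sq_le_sq' (by linarith [abs_le.1 this]) (abs_le.1 this).2
  refine le_trans ?_ (mul_le_mul_of_nonneg_left (Real.sqrt_le_sqrt hs) (by norm_num))
  unfold Phi
  convert hb
  rfl

end Crest.Agent.R189
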