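import Crest.Agent.R189.B6.Defs

/-! # Row 189, B6: coordinates (column, row in the nearest tile boundary, base point) near an infinite wall. -/

set_option autoImplicit false

noncomputable section

namespace Crest.Agent.R189

open Equiv Classical

theorem xy_add (b : Bool) (i j i' j' : ℤ) : xy b i j + xy b i' j' = xy b (i + i') (j + j') := by
  cases b <;> simp [xy]

theorem xy_zero (b : Bool) : xy b 0 0 = 0 := by cases b <;> simp [xy]

theorem xy_cr (b : Bool) (v : V) : xy b (cr b v) (cr (!b) v) = v := by cases b <;> simp [xy, cr]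

theorem cr_bdd {r : ℕ} {v : V} (h : v ∈ box r) (b : Bool) : -(r : ℤ) ≤ cr b v ∧ cr b v ≤ r := by
  rw [mem_box] at h
  cases b <;> simp only [cr] <;> simp <;> omega

theorem xy_mem_box {r : ℕ} (b : Bool) {i j : ℤ} (hi : |i| ≤ r) (hj : |j| ≤ r) : xy b i j ∈ box r := by
  rw [abs_le] at hi hj
  rw [mem_box]
  cases b <;> simp only [xy] <;> simp <;> omega

/-- component of a pair: `sel true = fst` -/
def sel {α : Type} (b : Bool) (p : α × α) : α := if b then p.1 else p.2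

theorem sel_zero {α : Type} [Zero α] {b : Bool} {p : α × α} : p = 0 ↔ sel b p = 0 ∧ sel (!b) p = 0 := by
  cases b <;> simp [sel, Prod.ext_iff, and_comm]

namespace Hier

variable {X : Type} [TopologicalSpace X] [AddAction V X] (H : Hier X) (b : Bool)

theorem sel_vadd (t : ℕ) (i j : ℤ) (x : X) : sel b (H.ph t (xy b i j +ᵥ x)) = i + sel b (H.ph t x) := by
  cases b <;> simp [sel, xy, H.ph_vadd]

theorem sel_vadd' (t : ℕ) (i j : ℤ) (x : X) : sel (!b) (H.ph t (xy b i j +ᵥ x)) = j + sel (!b) (H.ph t x) := by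
  cases b <;> simp [sel, xy, H.ph_vadd]

theorem mem_Y {x : X} : x ∈ H.Y b ↔ ∀ t, sel b (H.ph t x) = 0 := by
  refine forall_congr' fun t => ⟨fun ⟨j, hj⟩ => ?_, fun h => ⟨-(sel (!b) (H.ph t x)).valMinAbs, ?_⟩⟩
  · simpa [H.sel_vadd] using (sel_zero (b := b).1 hj).1
  · rw [sel_zero (b := b), H.sel_vadd, H.sel_vadd']
    simp [h]

theorem vadd_mem_Y {x : X} (hx : x ∈ H.Y b) (j : ℤ) : xy b 0 j +ᵥ x ∈ H.Y b :=
  (H.mem_Y b).2 fun t => by simp [H.sel_vadd, (H.mem_Y b).1 hx t]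

theorem eq_zero_of_mem_Y {x : X} (hx : x ∈ H.Y b) {i j : ℤ} (h : xy b i j +ᵥ x ∈ H.Y b) : i = 0 := by
  have h1 := (H.mem_Y b).1 h (i.natAbs + 1)
  rw [H.sel_vadd, (H.mem_Y b).1 hx, add_zero, ZMod.intCast_zmod_eq_zero_iff_dvd] at h1
  have := H.le_q (i.natAbs + 1)
  exact Int.eq_zero_of_dvd_of_natAbs_lt_natAbs h1 (by simp; omega)

/-- points with an infinite wall -/
def WX : Set X := {x | ∃ i : ℤ, xy b (-i) 0 +ᵥ x ∈ H.Y b}

/-- distance from the wall -/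
def col (x : X) : ℤ := if h : x ∈ H.WX b then h.choose else 0

/-- signed row with respect to the nearest level-`t` line -/
def row (t : ℕ) (x : X) : ℤ := (sel (!b) (H.ph t x)).valMinAbs

/-- the nearest level-`t` corner on the wall -/
def base (t : ℕ) (x : X) : X := xy b (-H.col b x) (-H.row b t x) +ᵥ x

theorem vadd_mem_WX {y : X} (hy : y ∈ H.Y b) (i j : ℤ) : xy b i j +ᵥ y ∈ H.WX b :=
  ⟨i, by rw [← add_vadd, xy_add]; simpa using H.vadd_mem_Y b hy j⟩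

theorem col_vadd {y : X} (hy : y ∈ H.Y b) (i j : ℤ) : H.col b (xy b i j +ᵥ y) = i := by
  have h := H.vadd_mem_WX b hy i j
  rw [col, dif_pos h]
  have h1 := h.choose_spec
  rw [← add_vadd, xy_add] at h1
  have := H.eq_zero_of_mem_Y b hy h1
  omega

theorem row_bdd (t : ℕ) (x : X) : -(H.q t : ℤ) < H.row b t x * 2 ∧ H.row b t x * 2 ≤ H.q t := by
  have : NeZero (H.q t) := ⟨(H.q_pos t).ne'⟩
  exact ZMod.valMinAbs_mem_Ioc _

theorem row_dvd {t : ℕ} {y : X} (h0 : H.ph t y = 0) (i j : ℤ) : (H.q t : ℤ) ∣ H.row b t (xy b i j +ᵥ y) - j := by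
  rw [← ZMod.intCast_zmod_eq_zero_iff_dvd]
  simp [row, H.sel_vadd', (sel_zero (b := b).1 h0).2]

theorem row_vadd {t : ℕ} {y : X} (h0 : H.ph t y = 0) (i : ℤ) {j : ℤ} (h1 : -(H.q t : ℤ) < j * 2) (h2 : j * 2 ≤ H.q t) :
    H.row b t (xy b i j +ᵥ y) = j := by
  have : NeZero (H.q t) := ⟨(H.q_pos t).ne'⟩
  rw [row, ZMod.valMinAbs_spec, H.sel_vadd', (sel_zero (b := b).1 h0).2, add_zero]
  exact ⟨rfl, h1, h2⟩

theorem base_vadd {t : ℕ} {y : X} (hy : y ∈ H.Y b) (h0 : H.ph t y = 0) (i : ℤ) {j : ℤ} (h1 : -(H.q t : ℤ) < j * 2)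
    (h2 : j * 2 ≤ H.q t) : H.base b t (xy b i j +ᵥ y) = y := by
  rw [base, H.col_vadd b hy, H.row_vadd b h0 i h1 h2, ← add_vadd, xy_add]
  simp [xy_zero]

theorem exists_rep (t : ℕ) {x : X} (hx : x ∈ H.WX b) : ∃ (y : X) (i j : ℤ), y ∈ H.Y b ∧ H.ph t y = 0 ∧
    -(H.q t : ℤ) < j * 2 ∧ j * 2 ≤ H.q t ∧ x = xy b i j +ᵥ y := by
  obtain ⟨i, hi⟩ := hx
  have h1 := H.vadd_mem_Y b hi (-H.row b t x)
  rw [← add_vadd, xy_add] at h1
  refine ⟨_, i, H.row b t x, h1, ?_, (H.row_bdd b t x).1, (H.row_bdd b t x).2, ?_⟩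
  · rw [sel_zero (b := b)]
    refine ⟨(H.mem_Y b).1 h1 t, ?_⟩
    rw [H.sel_vadd']
    simp [row]
  · rw [← add_vadd, xy_add]
    simp [xy_zero]

end Hier

end Crest.Agent.R189

end
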