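import Mathlib
import Crest.Prelude.Def_Amenable

/-! # Row 189, block B6: amenability criterion (almost invariant random points, locally finite stabilisers) and
the Hellinger bound for product measures. -/

set_option autoImplicit false
open Filter Topology
open scoped Pointwise

namespace Crest.Agent.R189

/-- a random point of `Ω` with finitely many values -/
structure RP (Ω : Type) where
  ι : Type
  [fin : Fintype ι]
  p : ι → ℝ
  a : ι → Ω
  nonneg : ∀ i, 0 ≤ p i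
  sum : ∑ i, p i = 1

attribute [instance] RP.fin

/-- expectation -/
def RP.E {Ω : Type} (μ : RP Ω) (f : Ω → ℝ) : ℝ := ∑ i, μ.p i * f (μ.a i)

/-- the law of `μ` is moved by at most `ε` by the map `φ` -/
def RP.Inv {Ω : Type} (μ : RP Ω) (φ : Ω → Ω) (ε : ℝ) : Prop :=
  ∀ f : Ω → ℝ, (∀ ω, |f ω| ≤ 1) → |μ.E (fun ω => f (φ ω)) - μ.E f| ≤ ε

theorem RP.abs_E_le {Ω : Type} (μ : RP Ω) {f : Ω → ℝ} {C : ℝ} (h : ∀ i, |f (μ.a i)| ≤ C) : |μ.E f| ≤ C := by
  refine (Finset.abs_sum_le_sum_abs _ _).trans ((Finset.sum_le_sum (g := fun i => μ.p i * C) fun i _ => ?_).trans_eq ?_)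
  · rw [abs_mul, abs_of_nonneg (μ.nonneg i)]
    exact mul_le_mul_of_nonneg_left (h i) (μ.nonneg i)
  · rw [← Finset.sum_mul, μ.sum, one_mul]

theorem RP.E_sub {Ω : Type} (μ : RP Ω) (f g : Ω → ℝ) : μ.E (fun ω => f ω - g ω) = μ.E f - μ.E g := by
  simp only [RP.E, mul_sub, Finset.sum_sub_distrib]

theorem RP.Inv.mono {Ω : Type} {μ : RP Ω} {φ : Ω → Ω} {ε ε' : ℝ} (h : μ.Inv φ ε) (h' : ε ≤ ε') : μ.Inv φ ε' :=
  fun f hf => (h f hf).trans h'

theorem RP.Inv.comp {Ω : Type} {μ : RP Ω} {φ ψ : Ω → Ω} {ε ε' : ℝ} (h : μ.Inv φ ε) (h' : μ.Inv ψ ε') :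
    μ.Inv (fun ω => φ (ψ ω)) (ε + ε') := fun f hf =>
  (abs_sub_le _ _ _).trans ((add_le_add (h' (fun ω => f (φ ω)) fun _ => hf _) (h f hf)).trans_eq (add_comm _ _))

theorem RP.Inv.symm {Ω : Type} {μ : RP Ω} {φ ψ : Ω → Ω} {ε : ℝ} (h : μ.Inv φ ε) (hψ : ∀ ω, ψ (φ ω) = ω) :
    μ.Inv ψ ε := fun f hf => by
  have := h (fun ω => f (ψ ω)) fun _ => hf _
  simp only [hψ] at this
  rwa [abs_sub_comm]

/-- independent pair -/
def RP.prod {Ω Ω' : Type} (μ : RP Ω) (ν : RP Ω') : RP (Ω × Ω') where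
  ι := μ.ι × ν.ι
  p i := μ.p i.1 * ν.p i.2
  a i := (μ.a i.1, ν.a i.2)
  nonneg i := mul_nonneg (μ.nonneg _) (ν.nonneg _)
  sum := by rw [Fintype.sum_prod_type, ← Finset.sum_mul_sum, μ.sum, ν.sum, one_mul]

theorem RP.Inv.prod {Ω Ω' : Type} {μ : RP Ω} {ν : RP Ω'} {φ : Ω → Ω} {ψ : Ω' → Ω'} {ε ε' : ℝ} (h : μ.Inv φ ε)
    (h' : ν.Inv ψ ε') : (μ.prod ν).Inv (Prod.map φ ψ) (ε + ε') := fun f hf => by
  have e : ∀ f : Ω × Ω' → ℝ, (μ.prod ν).E f = μ.E fun x => ν.E fun y => f (x, y) := fun f => by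
    simp only [RP.E, RP.prod, Finset.mul_sum, mul_assoc]
    exact Fintype.sum_prod_type _
  rw [e, e]
  refine (abs_sub_le _ (μ.E fun x => ν.E fun y => f (x, ψ y)) _).trans (add_le_add
    (h (fun x => ν.E fun y => f (x, ψ y)) fun x => ν.abs_E_le fun _ => hf _) ?_)
  rw [← μ.E_sub]
  exact μ.abs_E_le fun i => h' (fun y => f (μ.a i, y)) fun _ => hf _

theorem amenable_of_RP {G : Type} [Group G]
    (h : ∀ (F : Finset G) (ε : ℝ), 0 < ε → ∃ μ : RP G, ∀ g ∈ F, μ.Inv (g * ·) ε) : Crest.GroupTheory.Amenable G := by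
  classical
  choose μ hμ using fun i : Finset G × ℕ => h i.1 (1 / ((i.2 : ℝ) + 1)) (by positivity)
  let U : Ultrafilter (Finset G × ℕ) := Ultrafilter.of atTop
  have hU : (U : Filter (Finset G × ℕ)) ≤ atTop := Ultrafilter.of_le _
  have hb : ∀ (A : Set G) x, |A.indicator (1 : G → ℝ) x| ≤ 1 := fun A x => by
    by_cases hx : x ∈ A <;> simp [hx]
  have h1 : ∀ A : Set G, ∃ x, 0 ≤ x ∧ Tendsto (fun i => (μ i).E (A.indicator 1)) U (𝓝 x) := fun A => by
    obtain ⟨x, hx, h⟩ := (isCompact_Icc (a := (0 : ℝ)) (b := 1)).ultrafilter_le_nhds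
      (U.map fun i => (μ i).E (A.indicator 1)) (le_principal_iff.2 (mem_map.2 (univ_mem' fun i =>
        ⟨Finset.sum_nonneg fun j _ => mul_nonneg ((μ i).nonneg j) (Set.indicator_nonneg (fun _ _ => zero_le_one) _),
          (abs_le.1 ((μ i).abs_E_le fun _ => hb A _)).2⟩)))
    exact ⟨x, hx.1, h⟩
  choose m hm0 hm using h1
  refine ⟨fun A => ENNReal.ofReal (m A), ?_, fun A B hAB => ?_, fun g A => ?_⟩
  · have : m Set.univ = 1 := tendsto_nhds_unique (hm _) (by simp [RP.E, RP.sum])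
    simp [this]
  · have : m (A ∪ B) = m A + m B := by
      refine tendsto_nhds_unique (hm _) (((hm A).add (hm B)).congr fun i => ?_)
      simp only [RP.E, Set.indicator_union_of_disjoint hAB, mul_add, Finset.sum_add_distrib]
    simp only [this, ENNReal.ofReal_add (hm0 A) (hm0 B)]
  · suffices m (g • A) = m A by simp only [this]
    have h2 : Tendsto (fun i : Finset G × ℕ => 1 / ((i.2 : ℝ) + 1)) U (𝓝 0) :=
      (tendsto_one_div_add_atTop_nhds_zero_nat.comp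
        (by rw [← Filter.prod_atTop_atTop_eq]; exact Filter.tendsto_snd)).mono_left hU
    refine (eq_of_sub_eq_zero (tendsto_nhds_unique ((hm A).sub (hm (g • A))) (squeeze_zero_norm' ?_ h2))).symm
    filter_upwards [hU (eventually_ge_atTop (({g} : Finset G), 0))] with i hi
    have := hμ i g (hi.1 (Finset.mem_singleton_self g)) _ (hb (g • A))
    refine le_trans (le_of_eq ?_) this
    rw [Real.norm_eq_abs]
    congr 3
    ext x
    have h3 : g * x ∈ g • A ↔ x ∈ A := Set.smul_mem_smul_set_iff (a := g) (x := x)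
    by_cases hx : x ∈ A <;> simp [hx, h3]

/-- every finite subset of `H` generates a finite subgroup -/
def LocFin {G : Type} [Group G] (H : Subgroup G) : Prop :=
  ∀ F : Finset G, (∀ g ∈ F, g ∈ H) → Finite (Subgroup.closure (F : Set G))

theorem amenable_of_action {G Ω : Type} [Group G] [MulAction G Ω]
    (h : ∀ (F : Finset G) (ε : ℝ), 0 < ε → ∃ μ : RP Ω, (∀ i, LocFin (MulAction.stabilizer G (μ.a i))) ∧
      ∀ g ∈ F, μ.Inv (g • ·) ε) : Crest.GroupTheory.Amenable G := by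
  classical
  refine amenable_of_RP fun F ε hε => ?_
  obtain ⟨μ, h1, h2⟩ := h F ε hε
  have h3 : ∀ q : MulAction.orbitRel.Quotient G Ω, ∃ b : Ω, ⟦b⟧ = q ∧
      ((∃ i, ⟦μ.a i⟧ = q) → LocFin (MulAction.stabilizer G b)) := fun q => by
    by_cases hq : ∃ i, ⟦μ.a i⟧ = q
    · obtain ⟨i, hi⟩ := hq
      exact ⟨_, hi, fun _ => h1 i⟩
    · exact ⟨q.out, q.out_eq, fun h => (hq h).elim⟩
  choose b hb hb' using h3
  have h4 : ∀ ω : Ω, ∃ s : G, s • b ⟦ω⟧ = ω := fun ω => Quotient.exact (hb ⟦ω⟧).symm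
  choose s hs using h4
  have h5 : ∀ (g : G) (ω : Ω), (⟦g • ω⟧ : MulAction.orbitRel.Quotient G Ω) = ⟦ω⟧ := fun g ω => Quotient.sound ⟨g, rfl⟩
  let c : G × μ.ι → G := fun x => (s (x.1 • μ.a x.2))⁻¹ * x.1 * s (μ.a x.2)
  let K : MulAction.orbitRel.Quotient G Ω → Subgroup G := fun q =>
    Subgroup.closure ((((F ×ˢ Finset.univ).filter fun x : G × μ.ι => ⟦μ.a x.2⟧ = q).image c : Finset G) : Set G)
  have hK : ∀ q, Finite (K q) := fun q => by
    by_cases hq : ∃ i, ⟦μ.a i⟧ = q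
    · refine hb' q hq _ fun g hg => ?_
      obtain ⟨x, hx, rfl⟩ := Finset.mem_image.1 hg
      obtain rfl := (Finset.mem_filter.1 hx).2
      rw [MulAction.mem_stabilizer_iff, mul_smul, mul_smul, hs, inv_smul_eq_iff, ← h5 x.1, hs]
    · have : K q = ⊥ := by
        simp only [K]
        rw [Finset.filter_false_of_mem fun x _ h => hq ⟨_, h⟩]
        simp
      rw [this]
      infer_instance
  have := fun q => Fintype.ofFinite (K q)
  let ν : RP G :=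
    { ι := Σ i : μ.ι, K ⟦μ.a i⟧
      p := fun x => μ.p x.1 * (Fintype.card (K ⟦μ.a x.1⟧) : ℝ)⁻¹
      a := fun x => s (μ.a x.1) * x.2
      nonneg := fun x => mul_nonneg (μ.nonneg _) (by positivity)
      sum := by
        rw [Fintype.sum_sigma, ← μ.sum]
        refine Finset.sum_congr rfl fun i _ => ?_
        dsimp only
        refine (Finset.sum_const (μ.p i * (Fintype.card (K ⟦μ.a i⟧) : ℝ)⁻¹)).trans ?_
        rw [Finset.card_univ, nsmul_eq_mul]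
        field_simp }
  have e : ∀ f : G → ℝ, ν.E f = μ.E fun ω => (Fintype.card (K ⟦ω⟧) : ℝ)⁻¹ * ∑ k : K ⟦ω⟧, f (s ω * k) := fun f => by
    simp only [RP.E, ν, Fintype.sum_sigma, Finset.mul_sum, mul_assoc]
  refine ⟨ν, fun g hg f hf => le_trans (le_of_eq ?_) (h2 g hg
    (fun ω => (Fintype.card (K ⟦ω⟧) : ℝ)⁻¹ * ∑ k : K ⟦ω⟧, f (s ω * k)) fun ω => ?_)⟩
  · rw [e, e]
    congr 2
    refine Finset.sum_congr rfl fun i _ => ?_
    have h6 : ∀ q, q = ⟦μ.a i⟧ → (Fintype.card (K ⟦μ.a i⟧) : ℝ)⁻¹ * ∑ k : K ⟦μ.a i⟧, f (g * (s (μ.a i) * k)) =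
        (Fintype.card (K q) : ℝ)⁻¹ * ∑ k : K q, f (s (g • μ.a i) * k) := by
      rintro _ rfl
      congr 1
      refine Fintype.sum_equiv (Equiv.mulLeft (⟨c (g, i), Subgroup.subset_closure (Finset.mem_coe.2
        (Finset.mem_image_of_mem _ (by simp [hg])))⟩ : K ⟦μ.a i⟧)) _ _ fun k => ?_
      simp [c, mul_assoc]
    exact congrArg _ (h6 _ (h5 _ _))
  · rw [abs_mul, abs_of_nonneg (by positivity), inv_mul_le_iff₀ (by exact_mod_cast Fintype.card_pos), mul_one]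
    exact (Finset.abs_sum_le_sum_abs _ _).trans ((Finset.sum_le_card_nsmul _ _ 1 fun _ _ => hf _).trans_eq (by simp))

/-- it suffices to test generators -/
theorem amenable_of_gens {G Ω : Type} [Group G] [MulAction G Ω] {T : Set G} (hT : Subgroup.closure T = ⊤)
    (h : ∀ (F : Finset G), (F : Set G) ⊆ T → ∀ ε : ℝ, 0 < ε → ∃ μ : RP Ω,
      (∀ i, LocFin (MulAction.stabilizer G (μ.a i))) ∧ ∀ g ∈ F, μ.Inv (g • ·) ε) : Crest.GroupTheory.Amenable G := by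
  classical
  have h1 : ∀ g : G, ∃ (F : Finset G) (C : ℝ), (F : Set G) ⊆ T ∧ 0 ≤ C ∧ ∀ (μ : RP Ω) (ε : ℝ), 0 ≤ ε →
      (∀ x ∈ F, μ.Inv (x • ·) ε) → μ.Inv (g • ·) (C * ε) := fun g => by
    induction (hT ▸ Subgroup.mem_top g : g ∈ Subgroup.closure T) using Subgroup.closure_induction with
    | mem x hx => exact ⟨{x}, 1, by simpa, zero_le_one, fun μ ε _ h => by simpa using h⟩
    | one => exact ⟨∅, 0, by simp, le_rfl, fun μ ε _ _ f _ => by simp⟩
    | mul x y _ _ hx hy =>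
      obtain ⟨F, C, h1, h2, h3⟩ := hx
      obtain ⟨F', C', h1', h2', h3'⟩ := hy
      refine ⟨F ∪ F', C + C', by simp [h1, h1'], by positivity, fun μ ε hε h => ?_⟩
      simpa only [mul_smul, add_mul] using (h3 μ ε hε fun x hx => h x (by simp [hx])).comp
        (h3' μ ε hε fun x hx => h x (by simp [hx]))
    | inv x _ hx =>
      obtain ⟨F, C, h1, h2, h3⟩ := hx
      exact ⟨F, C, h1, h2, fun μ ε hε h => (h3 μ ε hε h).symm fun ω => inv_smul_smul x ω⟩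
  choose S C hS hC h1 using h1
  refine amenable_of_action (Ω := Ω) fun F ε hε => ?_
  have h2 : 0 ≤ ∑ g ∈ F, C g := Finset.sum_nonneg fun g _ => hC g
  obtain ⟨μ, h3, h4⟩ := h (F.biUnion S) (by simp [hS]) (ε / (∑ g ∈ F, C g + 1)) (by positivity)
  refine ⟨μ, h3, fun g hg => (h1 g μ _ (by positivity) fun x hx => h4 x (Finset.mem_biUnion.2 ⟨g, hg, hx⟩)).mono ?_⟩
  rw [← mul_div_assoc, div_le_iff₀ (by positivity)]
  nlinarith [Finset.single_le_sum (fun g _ => hC g) hg]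

theorem one_sub_prod_le {κ : Type} (s : Finset κ) (x : κ → ℝ) (h0 : ∀ k, 0 ≤ x k) (h1 : ∀ k, x k ≤ 1) :
    1 - ∏ k ∈ s, x k ≤ ∑ k ∈ s, (1 - x k) := by
  classical
  induction s using Finset.induction_on with
  | empty => simp
  | insert a s ha ih =>
    rw [Finset.prod_insert ha, Finset.sum_insert ha]
    have := Finset.prod_le_one (s := s) (fun k _ => h0 k) fun k _ => h1 k
    nlinarith [h0 a, h1 a]

theorem sum_sqrt_sub_sq {V : Type} [Fintype V] {p q : V → ℝ} (hp : ∀ v, 0 ≤ p v) (hq : ∀ v, 0 ≤ q v)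
    (hp1 : ∑ v, p v = 1) (hq1 : ∑ v, q v = 1) :
    ∑ v, (Real.sqrt (p v) - Real.sqrt (q v)) ^ 2 = 2 * (1 - ∑ v, Real.sqrt (p v) * Real.sqrt (q v)) := by
  have : ∀ v, (Real.sqrt (p v) - Real.sqrt (q v)) ^ 2 = p v + q v - 2 * (Real.sqrt (p v) * Real.sqrt (q v)) :=
    fun v => by nlinarith [Real.sq_sqrt (hp v), Real.sq_sqrt (hq v)]
  simp only [this, Finset.sum_sub_distrib, Finset.sum_add_distrib, hp1, hq1, ← Finset.mul_sum]
  ring

/-- Hellinger bound -/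
theorem hellinger {V : Type} [Fintype V] {p q : V → ℝ} (hp : ∀ v, 0 ≤ p v) (hq : ∀ v, 0 ≤ q v)
    (hp1 : ∑ v, p v = 1) (hq1 : ∑ v, q v = 1) (f : V → ℝ) (hf : ∀ v, |f v| ≤ 1) :
    |∑ v, p v * f v - ∑ v, q v * f v| ≤ 2 * Real.sqrt (∑ v, (Real.sqrt (p v) - Real.sqrt (q v)) ^ 2) := by
  have h1 : |∑ v, p v * f v - ∑ v, q v * f v| ≤
      ∑ v, |Real.sqrt (p v) - Real.sqrt (q v)| * (Real.sqrt (p v) + Real.sqrt (q v)) := by
    rw [← Finset.sum_sub_distrib]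
    refine (Finset.abs_sum_le_sum_abs _ _).trans (Finset.sum_le_sum fun v _ => ?_)
    rw [← sub_mul, ← abs_of_nonneg (a := Real.sqrt (p v) + Real.sqrt (q v)) (by positivity), ← abs_mul, abs_mul (p v - _),
      show (Real.sqrt (p v) - Real.sqrt (q v)) * (Real.sqrt (p v) + Real.sqrt (q v)) = p v - q v by
        nlinarith [Real.sq_sqrt (hp v), Real.sq_sqrt (hq v)]]
    exact mul_le_of_le_one_right (abs_nonneg _) (hf v)
  have h2 : ∑ v, (Real.sqrt (p v) + Real.sqrt (q v)) ^ 2 ≤ 4 := by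
    refine (Finset.sum_le_sum (g := fun v => 2 * p v + 2 * q v) fun v _ => ?_).trans_eq ?_
    · nlinarith [Real.sq_sqrt (hp v), Real.sq_sqrt (hq v), sq_nonneg (Real.sqrt (p v) - Real.sqrt (q v))]
    · simp only [Finset.sum_add_distrib, ← Finset.mul_sum, hp1, hq1]; norm_num
  have h3 := Finset.sum_mul_sq_le_sq_mul_sq Finset.univ (fun v => |Real.sqrt (p v) - Real.sqrt (q v)|)
    fun v => Real.sqrt (p v) + Real.sqrt (q v)
  simp only [sq_abs] at h3
  have h4 : 0 ≤ ∑ v, (Real.sqrt (p v) - Real.sqrt (q v)) ^ 2 := by positivity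
  refine h1.trans (abs_le_of_sq_le_sq' ?_ (by positivity)).2
  rw [mul_pow, Real.sq_sqrt h4]
  nlinarith

/-- Hellinger bound for product measures -/
theorem hellinger_pi {κ : Type} [Fintype κ] [DecidableEq κ] {V : κ → Type} [∀ k, Fintype (V k)]
    (p q : ∀ k, V k → ℝ) (hp : ∀ k v, 0 ≤ p k v) (hq : ∀ k v, 0 ≤ q k v) (hp1 : ∀ k, ∑ v, p k v = 1)
    (hq1 : ∀ k, ∑ v, q k v = 1) (f : (∀ k, V k) → ℝ) (hf : ∀ ω, |f ω| ≤ 1) :
    |∑ ω : ∀ k, V k, (∏ k, p k (ω k)) * f ω - ∑ ω : ∀ k, V k, (∏ k, q k (ω k)) * f ω| ≤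
      2 * Real.sqrt (∑ k, ∑ v, (Real.sqrt (p k v) - Real.sqrt (q k v)) ^ 2) := by
  have e : ∀ r : ∀ k, V k → ℝ, ∑ ω : ∀ k, V k, ∏ k, r k (ω k) = ∏ k, ∑ v, r k v := fun r => by
    rw [Finset.prod_univ_sum, Fintype.piFinset_univ]
  have hP : ∀ ω : ∀ k, V k, 0 ≤ ∏ k, p k (ω k) := fun ω => Finset.prod_nonneg fun k _ => hp k _
  have hQ : ∀ ω : ∀ k, V k, 0 ≤ ∏ k, q k (ω k) := fun ω => Finset.prod_nonneg fun k _ => hq k _
  have hP1 : ∑ ω : ∀ k, V k, ∏ k, p k (ω k) = 1 := by simp only [e, hp1, Finset.prod_const_one]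
  have hQ1 : ∑ ω : ∀ k, V k, ∏ k, q k (ω k) = 1 := by simp only [e, hq1, Finset.prod_const_one]
  refine (hellinger hP hQ hP1 hQ1 f hf).trans (mul_le_mul_of_nonneg_left (Real.sqrt_le_sqrt ?_) zero_le_two)
  rw [sum_sqrt_sub_sq hP hQ hP1 hQ1]
  simp only [fun k => sum_sqrt_sub_sq (hp k) (hq k) (hp1 k) (hq1 k), ← Finset.mul_sum]
  have e2 : ∑ ω : ∀ k, V k, Real.sqrt (∏ k, p k (ω k)) * Real.sqrt (∏ k, q k (ω k)) =
      ∏ k, ∑ v, Real.sqrt (p k v) * Real.sqrt (q k v) := by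
    rw [← e]
    refine Finset.sum_congr rfl fun ω _ => ?_
    rw [Real.sqrt_prod _ fun k _ => hp k _, Real.sqrt_prod _ fun k _ => hq k _, Finset.prod_mul_distrib]
  rw [e2]
  refine mul_le_mul_of_nonneg_left (one_sub_prod_le _ _ (fun k => by positivity) fun k => ?_) zero_le_two
  have := sum_sqrt_sub_sq (hp k) (hq k) (hp1 k) (hq1 k)
  have h4 : 0 ≤ ∑ v, (Real.sqrt (p k v) - Real.sqrt (q k v)) ^ 2 := by positivity
  linarith

end Crest.Agent.R189
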