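import Crest.Agent.R189.Basic
import Crest.Agent.R189.B6.Crit

/-! # Row 189, block B6 (amenability): definitions.
`S` acts on subsets of `X.Pt × Lv`.  A random subset near a wall: points get NAMES, every name gets an independent coin
whose bias depends on the column only.  A point is named privately below the (random) FRONT of its line, and by its
class in the periodic zone above the front. -/

set_option autoImplicit false

noncomputable section

namespace Crest.Agent.R189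

open Equiv Classical

/-- Bernoulli weights with angle `θ` -/
def bern (θ : ℝ) (v : Bool) : ℝ := if v then Real.sin θ ^ 2 else Real.cos θ ^ 2

/-- product weight of independent coins -/
def cw {N : Type} [Fintype N] (θ : N → ℝ) (ω : N → Bool) : ℝ := ∏ c, bern (θ c) (ω c)

/-- value of a function on a finite set, extended by a default value -/
def look {N β : Type} (𝒩 : Finset N) (d : β) (ω : 𝒩 → β) (c : N) : β := if h : c ∈ 𝒩 then ω ⟨c, h⟩ else d

/-- the set cut out of `W` by the coins in columns `[a, b]`; everything right of `b`, nothing left of `a` -/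
def ES {P N₀ : Type} (W : Set P) (col : P → ℤ) (a b : ℤ) (𝒩 : Finset (ℤ × N₀)) (lab : P → N₀) (ω : 𝒩 → Bool) :
    Set P :=
  {z | z ∈ W ∧ if a ≤ col z ∧ col z ≤ b then look 𝒩 false ω (col z, lab z) = true else b < col z}

/-- expectation over the coins -/
def Phi {P N₀ : Type} (W : Set P) (col : P → ℤ) (a b : ℤ) (𝒩 : Finset (ℤ × N₀)) (θ : ℤ → ℝ) (lab : P → N₀)
    (f : Set P → ℝ) : ℝ :=
  ∑ ω : 𝒩 → Bool, cw (fun c : 𝒩 => θ c.1.1) ω * f (ES W col a b 𝒩 lab ω)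

/-- tent amplitude of the fronts on `[k, 7k]` -/
def amp (k : ℕ) (t : ℤ) : ℝ := ((max 0 (min (t - k) (7 * k - t)) : ℤ) : ℝ)

/-- law of one front -/
def rho (k : ℕ) [NeZero (8 * k)] (x : ZMod (8 * k)) : ℝ :=
  amp k x.val ^ 2 / ∑ y : ZMod (8 * k), amp k y.val ^ 2

/-- how a permutation moves names `nm z = (column, private name)`, lines, heights and periodic classes -/
structure Ok {P N₁ L N₂ : Type} (W : Set P) (nm : P → ℤ × N₁) (ln : ℤ × N₁ → L) (ht : ℤ × N₁ → ℤ) (sh : ℤ × N₁ → N₂)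
    (lo hi D K : ℤ) (g : Perm P) : Prop where
  mem : ∀ z ∈ W, g z ∈ W
  col : ∀ z ∈ W, |(nm (g z)).1 - (nm z).1| ≤ D
  hts : ∀ z ∈ W, lo ≤ (nm z).1 → (nm z).1 ≤ hi → ht (nm z) < K → |ht (nm (g z)) - ht (nm z)| ≤ 2 * D
  priv : ∀ z ∈ W, ∀ z' ∈ W, lo ≤ (nm z).1 → (nm z).1 ≤ hi → ht (nm z) < K → nm z = nm z' → nm (g z) = nm (g z')
  line : ∀ z ∈ W, ∀ z' ∈ W, lo ≤ (nm z).1 → (nm z).1 ≤ hi → lo ≤ (nm z').1 → (nm z').1 ≤ hi →
    0 ≤ ht (nm z) → ht (nm z) < K → 0 ≤ ht (nm z') → ht (nm z') < K → ln (nm z) = ln (nm z') →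
    ln (nm (g z)) = ln (nm (g z')) ∧ ht (nm (g z)) - ht (nm z) = ht (nm (g z')) - ht (nm z')
  cls : ∀ z ∈ W, ∀ z' ∈ W, lo ≤ (nm z).1 → (nm z).1 ≤ hi → 0 ≤ ht (nm z) → 0 ≤ ht (nm z') →
    (nm z).1 = (nm z').1 → sh (nm z) = sh (nm z') →
    (nm (g z)).1 = (nm (g z')).1 ∧ sh (nm (g z)) = sh (nm (g z'))

/-- `g` is given by the local rule `u` of radius `r` -/
structure Rule {X : SFT} (r : ℕ) (g : Perm (X.Pt × Lv)) (u : X.Pt × Lv → V × Lv) : Prop where
  app : ∀ z, g z = ((u z).1 +ᵥ z.1, (u z).2)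
  bdd : ∀ z, (u z).1 ∈ box r
  loc : ∀ x y l, SFT.agree r x y → u (x, l) = u (y, l)

/-- `g` has a local rule of radius `r` -/
def Coc {X : SFT} (r : ℕ) (g : Perm (X.Pt × Lv)) : Prop := ∃ u, Rule r g u

/-- the coordinate across the wall: `cr b (xy b i j) = i` -/
def cr (b : Bool) (v : V) : ℤ := if b then v.1 else v.2

/-- along infinite walls `E` is a half plane up to a local modification -/
def Tame {X : SFT} (H : Hier X.Pt) (b : Bool) (E : Set (X.Pt × Lv)) : Prop :=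
  ∃ R : ℕ, (∀ y ∈ H.Y b, ∀ (i : ℤ) (l : Lv), (R : ℤ) ≤ i → (xy b i 0 +ᵥ y, l) ∈ E) ∧
    (∀ y ∈ H.Y b, ∀ (i : ℤ) (l : Lv), i ≤ -(R : ℤ) → (xy b i 0 +ᵥ y, l) ∉ E) ∧
    ∀ y ∈ H.Y b, ∀ y' ∈ H.Y b, SFT.agree R y y' → ∀ (i : ℤ) (l : Lv),
      (xy b i 0 +ᵥ y, l) ∈ E → (xy b i 0 +ᵥ y', l) ∈ E

end Crest.Agent.R189

end
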