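import Crest.Agent.R189.B6.Defs

/-! # Row 189, B6: the fronts. -/

set_option autoImplicit false

namespace Crest.Agent.R189

open Equiv Classical

variable (k : ℕ) [NeZero (8 * k)]

theorem rho_nonneg (x : ZMod (8 * k)) : 0 ≤ rho k x := by unfold rho; positivity

/-- the normalisation is at least `4 k³` (the `4k` values `2k ≤ t < 6k` have amplitude `≥ k`) -/
theorem amp_sum_ge : 4 * (k : ℝ) ^ 3 ≤ ∑ y : ZMod (8 * k), amp k y.val ^ 2 := by
  have hv : ∀ t ∈ Finset.Ico (2 * k) (6 * k), ((t : ZMod (8 * k)).val) = t := fun t ht =>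
    ZMod.val_natCast_of_lt (by have := Finset.mem_Ico.1 ht; omega)
  refine le_trans ?_ (Finset.sum_le_sum_of_subset_of_nonneg
    (Finset.subset_univ ((Finset.Ico (2 * k) (6 * k)).image fun t : ℕ => (t : ZMod (8 * k)))) fun _ _ _ => sq_nonneg _)
  rw [Finset.sum_image fun a ha b hb h => by rw [← hv a ha, ← hv b hb]; exact congrArg ZMod.val h]
  refine le_trans (le_of_eq ?_) (Finset.card_nsmul_le_sum _ _ ((k : ℝ) ^ 2) fun t ht => ?_)
  · rw [Nat.card_Ico, show 6 * k - 2 * k = 4 * k by omega, nsmul_eq_mul]; push_cast; ring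
  · rw [hv t ht]
    have := Finset.mem_Ico.1 ht
    refine pow_le_pow_left₀ (Nat.cast_nonneg k) ?_ 2
    unfold amp
    exact_mod_cast (by omega : (k : ℤ) ≤ max 0 (min ((t : ℤ) - k) (7 * k - t)))

theorem sum_rho : ∑ x, rho k x = 1 := by
  have hk : (0 : ℝ) < k := by exact_mod_cast Nat.pos_of_mul_pos_left (Nat.pos_of_neZero (8 * k))
  unfold rho
  rw [← Finset.sum_div, div_self (lt_of_lt_of_le (by positivity) (amp_sum_ge k)).ne']

theorem rho_supp {x : ZMod (8 * k)} (h : rho k x ≠ 0) : (k : ℤ) < x.val ∧ (x.val : ℤ) < 7 * k := by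
  by_contra hn
  refine h ?_
  unfold rho amp
  rw [show max 0 (min ((x.val : ℤ) - k) (7 * k - x.val)) = 0 by omega]
  simp

theorem val_add_of {x : ZMod (8 * k)} {e : ℤ} (h0 : 0 ≤ (x.val : ℤ) + e) (h1 : (x.val : ℤ) + e < 8 * k) :
    ((x + (e : ZMod (8 * k))).val : ℤ) = x.val + e := by
  rw [show x + (e : ZMod (8 * k)) = (((x.val : ℤ) + e : ℤ) : ZMod (8 * k)) by simp, ZMod.val_intCast]
  exact Int.emod_eq_of_lt h0 (by push_cast; exact h1)

/-- cyclic Lipschitz bound (across the cut both amplitudes vanish) -/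
theorem amp_lip (x : ZMod (8 * k)) {e : ℤ} (he : |e| ≤ k) :
    |amp k (x + (e : ZMod (8 * k))).val - amp k x.val| ≤ |(e : ℝ)| := by
  have hx : (x.val : ℤ) < 8 * k := by exact_mod_cast ZMod.val_lt x
  have hz : ((8 * k : ℤ) : ZMod (8 * k)) = 0 := by exact_mod_cast ZMod.natCast_self (8 * k)
  obtain ⟨h1, h2⟩ := abs_le.1 he
  unfold amp
  rw [← Int.cast_sub, ← Int.cast_abs, ← Int.cast_abs, Int.cast_le, abs_le]
  rcases lt_or_ge ((x.val : ℤ) + e) 0 with h | h
  · have := val_add_of k (x := x) (e := e + 8 * k) (by omega) (by omega)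
    rw [Int.cast_add, hz, add_zero] at this
    rw [this]
    have := abs_nonneg e
    omega
  rcases lt_or_ge ((x.val : ℤ) + e) (8 * k) with h' | h'
  · rw [val_add_of k h h']
    have := le_abs_self e
    have := neg_abs_le e
    omega
  · have := val_add_of k (x := x) (e := e - 8 * k) (by omega) (by omega)
    rw [Int.cast_sub, hz, sub_zero] at this
    rw [this]
    have := abs_nonneg e
    omega

theorem frb_line {c D₂ : ℤ} (hc : |c| ≤ D₂) (hk : D₂ ≤ k) :
    ∑ v : ZMod (8 * k), (Real.sqrt (rho k (v - (c : ZMod (8 * k)))) - Real.sqrt (rho k v)) ^ 2 ≤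
      2 * (D₂ : ℝ) ^ 2 / (k : ℝ) ^ 2 := by
  have hk0 : (0 : ℝ) < k := by
    have := NeZero.ne (8 * k)
    exact_mod_cast (show 0 < k by omega)
  have hZ := amp_sum_ge k
  have hs : ∀ x, Real.sqrt (rho k x) = amp k x.val / Real.sqrt (∑ y : ZMod (8 * k), amp k y.val ^ 2) := fun x => by
    rw [rho, Real.sqrt_div (sq_nonneg _), Real.sqrt_sq]
    unfold amp
    exact_mod_cast le_max_left _ _
  simp only [hs]
  generalize ∑ y : ZMod (8 * k), amp k y.val ^ 2 = Z at hZ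
  have hZ0 : 0 < Z := lt_of_lt_of_le (by positivity) hZ
  refine (Finset.sum_le_card_nsmul _ _ ((D₂ : ℝ) ^ 2 / Z) fun v _ => ?_).trans ?_
  · rw [← sub_div, div_pow, Real.sq_sqrt hZ0.le]
    have h1 := amp_lip k v (e := -c) (by rw [abs_neg]; exact hc.trans hk)
    rw [Int.cast_neg, ← sub_eq_add_neg, Int.cast_neg, abs_neg] at h1
    have h2 : |(c : ℝ)| ≤ D₂ := by exact_mod_cast hc
    have h3 := abs_le.1 (h1.trans h2)
    exact div_le_div_of_nonneg_right (sq_le_sq' h3.1 h3.2) hZ0.le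
  · rw [Finset.card_univ, ZMod.card, nsmul_eq_mul, ← mul_div_assoc, div_le_div_iff₀ hZ0 (by positivity)]
    push_cast
    nlinarith [mul_le_mul_of_nonneg_left hZ (sq_nonneg (D₂ : ℝ))]

/-- permuting the lines and shifting the fronts by at most `D₂` costs little.  Recipe: reindex the first sum by the
equivalence `x ↦ fun φ => x (σ⁻¹ φ) + e (σ⁻¹ φ)`, get the product law `∏ φ, rho (x φ - e (σ⁻¹ φ))`, apply `hellinger_pi`;
each line costs `≤ 8 k D₂² / (4 k³)`. -/
theorem front_bound {L : Type} [Fintype L] (σ : Perm L) (e : L → ℤ) (D₂ : ℤ) (he : ∀ φ, |e φ| ≤ D₂) (hk : D₂ ≤ k)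
    (G : (L → ZMod (8 * k)) → ℝ) (hG : ∀ x, |G x| ≤ 1) :
    |∑ x : L → ZMod (8 * k), (∏ φ, rho k (x φ)) * G (fun φ => x (σ⁻¹ φ) + (e (σ⁻¹ φ) : ZMod (8 * k))) -
      ∑ x : L → ZMod (8 * k), (∏ φ, rho k (x φ)) * G x| ≤
      2 * Real.sqrt (Fintype.card L * (2 * (D₂ : ℝ) ^ 2 / (k : ℝ) ^ 2)) := by
  let T : (L → ZMod (8 * k)) ≃ (L → ZMod (8 * k)) :=
    { toFun := fun x φ => x (σ⁻¹ φ) + (e (σ⁻¹ φ) : ZMod (8 * k))
      invFun := fun y φ => y (σ φ) - (e φ : ZMod (8 * k))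
      left_inv := fun x => by funext φ; simp
      right_inv := fun y => by funext φ; simp }
  have h1 : ∑ x : L → ZMod (8 * k), (∏ φ, rho k (x φ)) * G (fun φ => x (σ⁻¹ φ) + (e (σ⁻¹ φ) : ZMod (8 * k))) =
      ∑ y : L → ZMod (8 * k), (∏ φ, rho k (y φ - (e (σ⁻¹ φ) : ZMod (8 * k)))) * G y := by
    refine Fintype.sum_equiv T _ _ fun x => ?_
    congr 1
    simp only [T, Equiv.coe_fn_mk, add_sub_cancel_right]
    exact (Equiv.prod_comp σ⁻¹ fun φ => rho k (x φ)).symm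
  rw [h1]
  refine (hellinger_pi (V := fun _ : L => ZMod (8 * k)) (fun φ v => rho k (v - (e (σ⁻¹ φ) : ZMod (8 * k))))
    (fun _ v => rho k v) (fun _ _ => rho_nonneg k _) (fun _ _ => rho_nonneg k _)
    (fun φ => (Equiv.sum_comp (Equiv.subRight _) (rho k)).trans (sum_rho k)) (fun _ => sum_rho k) G hG).trans ?_
  gcongr
  refine (Finset.sum_le_card_nsmul _ _ _ fun φ _ => frb_line k (he _) hk).trans_eq ?_
  rw [nsmul_eq_mul, Finset.card_univ]

end Crest.Agent.R189
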