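import Crest.Agent.R189.B6.Defs

/-! # Row 189, B6: the stabiliser of two tame sets is locally finite. -/

set_option autoImplicit false

namespace Crest.Agent.R189

open Equiv
open scoped Pointwise

/-- a finitely generated permutation group preserving fibres of bounded size is finite.  Recipe: each fibre gives a hom
`closure F →* Perm B` (`Equiv.Perm.viaEmbeddingHom` / `subtypePerm`); homs from a f.g. group to a finite group form a finite
type (restrict to `F`, `MonoidHom.eq_of_eqOn_dense`); `h ↦ (ρ ↦ ρ h)` is injective. -/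
theorem finite_of_fibres {P Ω B : Type} [Finite B] (base : P → Ω) (crd : P → B)
    (hinj : ∀ z z', base z = base z' → crd z = crd z' → z = z') (F : Finset (Perm P))
    (hF : ∀ g ∈ F, ∀ z, base (g z) = base z) : Finite (Subgroup.closure (F : Set (Perm P))) := by
  set G := Subgroup.closure (F : Set (Perm P)) with hG
  have hb : ∀ g ∈ G, ∀ z, base (g z) = base z := by
    intro g hg
    induction hg using Subgroup.closure_induction with
    | mem g hg => exact hF g hg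
    | one => exact fun z => rfl
    | mul g g' _ _ h h' => exact fun z => (h _).trans (h' z)
    | inv g _ h => exact fun z => (h _).symm.trans (by simp)
  let sub : ∀ ω : Ω, G →* Perm {z // base z = ω} := fun ω =>
    { toFun := fun g => (g : Perm P).subtypePerm fun z => by rw [hb g g.2]
      map_one' := Perm.ext fun z => rfl
      map_mul' := fun g g' => Perm.ext fun z => rfl }
  let emb : ∀ ω : Ω, {z // base z = ω} ↪ B := fun ω =>
    ⟨fun z => crd z.1, fun z z' h => Subtype.ext (hinj _ _ (z.2.trans z'.2.symm) h)⟩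
  obtain ⟨S, hS, hSf⟩ := Group.fg_iff.1 (inferInstance : Group.FG G)
  have : Finite S := hSf
  have : Finite (G →* Perm B) := Finite.of_injective (fun ρ => fun s : S => ρ s) fun ρ ρ' h =>
    MonoidHom.eq_of_eqOn_dense hS fun s hs => congrFun h ⟨s, hs⟩
  refine Finite.of_injective (fun g : G => fun ρ : G →* Perm B => ρ g) fun g g' h => ?_
  refine Subtype.ext (Perm.ext fun z => ?_)
  have h1 := Perm.viaEmbeddingHom_injective (emb (base z))
    (congrFun h ((Perm.viaEmbeddingHom (emb (base z))).comp (sub (base z))))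
  exact congrArg (fun e : Perm {y // base y = base z} => (e ⟨z, rfl⟩).1) h1

/-- compactness: a level-`t` wall looks like an infinite wall -/
theorem exists_level {X : SFT} (H : Hier X.Pt) (b : Bool) (r : ℕ) : ∃ t₀, ∀ t, t₀ ≤ t → ∀ (x : X.Pt) (j : ℤ),
    H.ph t (xy b 0 j +ᵥ x) = 0 → ∃ y ∈ H.Y b, SFT.agree r x y := by
  have hm : ∀ {s t}, s ≤ t → {x : X.Pt | ∃ j : ℤ, H.ph t (xy b 0 j +ᵥ x) = 0} ⊆
      {x : X.Pt | ∃ j : ℤ, H.ph s (xy b 0 j +ᵥ x) = 0} := fun h _ ⟨j, hj⟩ => ⟨j, H.ph_le h hj⟩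
  obtain ⟨t₀, h⟩ := exists_subset_nhds_of_compactSpace
    (V := fun t => {x : X.Pt | ∃ j : ℤ, H.ph t (xy b 0 j +ᵥ x) = 0}) (U := {x | ∃ y ∈ H.Y b, SFT.agree r x y})
    (fun s t => ⟨max s t, hm (le_max_left _ _), hm (le_max_right _ _)⟩)
    (fun t => by
      simp only [H.ph_vadd]
      exact isOpen_compl_iff.1 (H.ph_lc t {p | ∃ j : ℤ, (((xy b 0 j).1 : ZMod (H.q t)), ((xy b 0 j).2 : ZMod (H.q t))) + p = 0}ᶜ))
    fun y hy => SFT.mem_nhds_iff.2 ⟨r, fun x hx => ⟨y, Set.mem_iInter.1 hy, hx.symm⟩⟩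
  exact ⟨t₀, fun t ht x j hj => h (hm ht ⟨j, hj⟩)⟩

theorem locb_add (b : Bool) (i j i' j' : ℤ) : xy b i j + xy b i' j' = xy b (i + i') (j + j') := by
  cases b <;> rfl

theorem locb_cr (b : Bool) (v : V) : xy b (cr b v) (cr (!b) v) = v := by
  cases b <;> rfl

theorem locb_mem (b : Bool) {r : ℕ} {i j : ℤ} (hi : |i| ≤ r) (hj : |j| ≤ r) : xy b i j ∈ box r := by
  rw [mem_box]
  cases b
  · exact ⟨abs_le.1 hj, abs_le.1 hi⟩
  · exact ⟨abs_le.1 hi, abs_le.1 hj⟩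

theorem locb_abs (b : Bool) {r : ℕ} {v : V} (hv : v ∈ box r) : |cr b v| ≤ r := by
  rw [mem_box] at hv
  cases b
  · exact abs_le.2 hv.2
  · exact abs_le.2 hv.1

theorem locb_Y {X : SFT} {H : Hier X.Pt} {b : Bool} {y : X.Pt} (hy : y ∈ H.Y b) (e : ℤ) : xy b 0 e +ᵥ y ∈ H.Y b :=
  fun s => (hy s).elim fun j hj => ⟨j - e, by rwa [← add_vadd, locb_add, add_zero, sub_add_cancel]⟩

/-- the position inside the modified strips.  Recipe: `t` large (`exists_level` with radius `2R + 3r`, `q t > 4(R + r)`);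
for `z = (x, l)` let `i` = `valMinAbs` of the `b`-coordinate of `ph t x`, `y = xy b (-i) 0 +ᵥ x`,
`In z := R ≤ i ∨ ∃ y' ∈ Y, agree R y y' ∧ (xy b i 0 +ᵥ y', l) ∈ E`, `Ψ z = if In z then i else i + q t`. -/
theorem exists_psi {X : SFT} (H : Hier X.Pt) (b : Bool) (E : Set (X.Pt × Lv)) (hE : Tame H b E) (r : ℕ) :
    ∃ (Ψ : X.Pt × Lv → ℤ) (B : ℕ), (∀ z, |Ψ z| ≤ B) ∧ ∀ g u, Rule r g u → g • E = E → ∀ z,
      Ψ (g z) = Ψ z + cr b (u z).1 := by
  obtain ⟨R, h1, h2, h3⟩ := hE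
  obtain ⟨t, ht⟩ := exists_level H b (r + (R + r))
  have ht' := ht t le_rfl
  let W : X.Pt → Prop := fun y => ∃ j : ℤ, H.ph t (xy b 0 j +ᵥ y) = 0
  let J : X.Pt → ℤ → Lv → Prop := fun y i l => ∃ y' ∈ H.Y b, SFT.agree R y y' ∧ (xy b i 0 +ᵥ y', l) ∈ E
  let P : X.Pt × Lv → ℤ → Prop := fun z i => W (xy b (-i) 0 +ᵥ z.1) ∧ J (xy b (-i) 0 +ᵥ z.1) i z.2
  have hJ : ∀ y y', y' ∈ H.Y b → SFT.agree R y y' → ∀ i l, J y i l ↔ (xy b i 0 +ᵥ y', l) ∈ E := fun y y' hy' ha i l =>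
    ⟨fun ⟨y'', h, ha', hm⟩ => h3 y'' h y' hy' (ha'.symm.trans ha) i l hm, fun hm => ⟨y', hy', ha, hm⟩⟩
  have hlo : ∀ z i, P z i → -(R : ℤ) ≤ i := fun z i ⟨_, y', hy', _, hm⟩ =>
    le_of_not_ge fun h => h2 y' hy' i _ h hm
  have hup : ∀ z, ∃ i, P z i ∧ i ≤ R + H.q t := fun z => by
    obtain ⟨p, e, hp, h0, hq⟩ : ∃ p e : ℤ, H.pos t (xy b (-R) 0 +ᵥ z.1) = xy b p e ∧ 0 ≤ p ∧ p < H.q t := by
      have := H.pos_bounds t (xy b (-R) 0 +ᵥ z.1)
      refine ⟨_, _, (locb_cr b _).symm, ?_⟩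
      cases b
      · exact this.2
      · exact this.1
    have hW : H.ph t (xy b 0 (-e) +ᵥ (xy b (-(R + p)) 0 +ᵥ z.1)) = 0 := by
      rw [← H.ph_neg_pos t (xy b (-R) 0 +ᵥ z.1), hp, ← add_vadd, ← add_vadd]
      congr 2
      cases b <;> simp [xy]
    obtain ⟨y', hy', ha⟩ := ht' _ _ hW
    exact ⟨R + p, ⟨⟨_, hW⟩, y', hy', ha.mono (by omega), h1 y' hy' _ _ (by omega)⟩, by omega⟩
  have key : ∀ g u, Rule r g u → g • E = E → ∀ z i, P z i ↔ P (g z) (i + cr b (u z).1) := by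
    rintro g u hu hg ⟨x, l⟩ i
    have hgE : ∀ w, w ∈ E ↔ g w ∈ E := fun w => by
      conv_rhs => rw [← hg]
      exact (Set.smul_mem_smul_set_iff (a := g)).symm
    have hd := abs_le.1 (locb_abs b (hu.bdd (x, l)))
    have he := locb_abs (!b) (hu.bdd (x, l))
    have hv := locb_cr b (u (x, l)).1
    generalize cr b (u (x, l)).1 = d at *
    generalize cr (!b) (u (x, l)).1 = e at *
    have e1 : xy b (-(i + d)) 0 +ᵥ (g (x, l)).1 = xy b 0 e +ᵥ (xy b (-i) 0 +ᵥ x) := by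
      rw [hu.app, ← hv, ← add_vadd, ← add_vadd, locb_add, locb_add]
      congr 2 <;> ring
    have e2 : x = xy b i 0 +ᵥ (xy b (-i) 0 +ᵥ x) := by
      rw [← add_vadd, locb_add, add_neg_cancel, add_zero, show xy b 0 0 = 0 by cases b <;> rfl, zero_vadd]
    simp only [P]
    rw [e1]
    generalize xy b (-i) 0 +ᵥ x = y at *
    have hW : W (xy b 0 e +ᵥ y) ↔ W y :=
      ⟨fun ⟨j, hj⟩ => ⟨j + e, by rwa [← add_vadd, locb_add, add_zero] at hj⟩,
        fun ⟨j, hj⟩ => ⟨j - e, by rwa [← add_vadd, locb_add, add_zero, sub_add_cancel]⟩⟩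
    rw [hW]
    refine and_congr_right fun ⟨j, hj⟩ => ?_
    obtain ⟨y', hy', ha⟩ := ht' y j hj
    have hy'' := locb_Y hy' e
    rw [hJ y y' hy' (ha.mono (by omega)),
      hJ _ _ hy'' ((ha.mono (Nat.le_add_left _ _)).vadd (locb_mem b (by simp) he))]
    by_cases c1 : (R + r : ℤ) ≤ i
    · exact iff_of_true (h1 _ hy' _ _ (by omega)) (h1 _ hy'' _ _ (by omega))
    by_cases c2 : i ≤ -(R + r : ℤ)
    · exact iff_of_false (h2 _ hy' _ _ (by omega)) (h2 _ hy'' _ _ (by omega))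
    have hx : SFT.agree r x (xy b i 0 +ᵥ y') := by
      rw [e2]
      exact ha.vadd (locb_mem b (abs_le.2 (by push_cast; omega)) (by simp; positivity))
    rw [hgE, hu.app, ← hu.loc x _ l hx, hu.app (x, l), ← hv, ← add_vadd, ← add_vadd, locb_add, locb_add, add_comm d,
      add_zero, add_zero, zero_add]
  choose Ψ hΨ hmin using fun z => Int.exists_least_of_bdd ⟨_, hlo z⟩ ((hup z).imp fun _ h => h.1)
  refine ⟨Ψ, R + H.q t, fun z => ?_, fun g u hu hg z => le_antisymm (hmin _ _ ((key g u hu hg z _).1 (hΨ z))) ?_⟩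
  · obtain ⟨i, hi, hi'⟩ := hup z
    have := hmin z i hi
    have := hlo z _ (hΨ z)
    rw [abs_le]
    push_cast
    omega
  · have := hmin z (Ψ (g z) - cr b (u z).1) ((key g u hu hg z _).2 (by rw [sub_add_cancel]; exact hΨ _))
    omega

theorem finite_of_tame {X : SFT} (H : Hier X.Pt) (E₁ E₂ : Set (X.Pt × Lv)) (h₁ : Tame H true E₁) (h₂ : Tame H false E₂)
    (r : ℕ) (F : Finset (Perm (X.Pt × Lv))) (hF : ∀ g ∈ F, Coc r g ∧ g • E₁ = E₁ ∧ g • E₂ = E₂) :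
    Finite (Subgroup.closure (F : Set (Perm (X.Pt × Lv)))) := by
  obtain ⟨Ψ₁, B₁, hB₁, hΨ₁⟩ := exists_psi H true E₁ h₁ r
  obtain ⟨Ψ₂, B₂, hB₂, hΨ₂⟩ := exists_psi H false E₂ h₂ r
  refine finite_of_fibres (B := Set.Icc (-(B₁ : ℤ)) B₁ × Set.Icc (-(B₂ : ℤ)) B₂ × Lv)
    (fun z => (-((Ψ₁ z, Ψ₂ z) : V)) +ᵥ z.1) (fun z => (⟨Ψ₁ z, abs_le.1 (hB₁ z)⟩, ⟨Ψ₂ z, abs_le.1 (hB₂ z)⟩, z.2)) ?_ F ?_
  · intro z z' h1 h2
    simp only [Prod.mk.injEq, Subtype.mk.injEq] at h2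
    obtain ⟨a1, a2, a3⟩ := h2
    simp only [a1, a2] at h1
    refine Prod.ext ?_ a3
    have h3 := congrArg (fun x : X.Pt => ((Ψ₁ z', Ψ₂ z') : V) +ᵥ x) h1
    simpa only [← add_vadd, add_neg_cancel, zero_vadd] using h3
  · intro g hg z
    obtain ⟨⟨u, hu⟩, e1, e2⟩ := hF g hg
    have h3 : ((Ψ₁ (g z), Ψ₂ (g z)) : V) = (Ψ₁ z, Ψ₂ z) + (u z).1 := by
      rw [hΨ₁ g u hu e1 z, hΨ₂ g u hu e2 z]
      rfl
    have h4 : (g z).1 = (u z).1 +ᵥ z.1 := by rw [hu.app]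
    show (-((Ψ₁ (g z), Ψ₂ (g z)) : V)) +ᵥ (g z).1 = _
    rw [h3, h4, ← add_vadd]
    congr 1
    abel

end Crest.Agent.R189
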