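import Crest.Agent.R189.B6.Defs

/-! # Row 189, B6: the logarithmic profile. -/

set_option autoImplicit false

namespace Crest.Agent.R189

theorem prof_log {s t m : ℝ} (hm : 0 < m) (hs : m ≤ s) (ht : m ≤ t) : |Real.log s - Real.log t| ≤ |s - t| / m := by
  have key : ∀ {s t : ℝ}, m ≤ s → m ≤ t → Real.log s - Real.log t ≤ |s - t| / m := fun {s t} hs ht => by
    have h0 : 0 < s := hm.trans_le hs
    have h0' : 0 < t := hm.trans_le ht
    rw [← Real.log_div h0.ne' h0'.ne']
    refine (Real.log_le_sub_one_of_pos (div_pos h0 h0')).trans ?_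
    rw [div_sub_one h0'.ne']
    exact (div_le_div_of_nonneg_right (le_abs_self _) h0'.le).trans (div_le_div_of_nonneg_left (abs_nonneg _) hm ht)
  refine abs_le.2 ⟨?_, key hs ht⟩
  have := key ht hs
  rw [abs_sub_comm] at this
  linarith

theorem prof_sum (E a n : ℕ) (ha : E + 1 ≤ a) :
    ∑ i ∈ Finset.Icc ((a : ℤ) - E) (a + n), (((max i a : ℤ) : ℝ))⁻¹ ≤ 1 + (Real.log (a + n) - Real.log a) := by
  have h0 : (0 : ℝ) < a := by exact_mod_cast (by omega : 0 < a)
  induction n with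
  | zero =>
    rw [Finset.sum_congr rfl (g := fun _ => (a : ℝ)⁻¹) fun i hi => by
      rw [max_eq_right (by simpa using (Finset.mem_Icc.1 hi).2), Int.cast_natCast], Finset.sum_const, Int.card_Icc,
      show ((a : ℤ) + (0 : ℕ) + 1 - (a - E)).toNat = E + 1 by omega, nsmul_eq_mul]
    simp only [Nat.cast_zero, add_zero, sub_self]
    rw [← div_eq_mul_inv, div_le_one h0]
    exact_mod_cast ha
  | succ n ih =>
    have e : Finset.Icc ((a : ℤ) - E) (a + (n + 1 : ℕ)) = insert ((a : ℤ) + n + 1) (Finset.Icc ((a : ℤ) - E) (a + n)) := by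
      ext i
      simp only [Finset.mem_Icc, Finset.mem_insert]
      omega
    rw [e, Finset.sum_insert (by simp), max_eq_left (by omega)]
    have h1 : (0 : ℝ) < a + n := by positivity
    have h2 := Real.one_sub_inv_le_log_of_pos (show (0 : ℝ) < (a + n + 1) / (a + n) by positivity)
    rw [Real.log_div (by positivity) h1.ne', inv_div, one_sub_div (by positivity), add_sub_cancel_left, one_div] at h2
    push_cast at ih ⊢
    rw [← add_assoc (a : ℝ)]
    linarith

/-- Recipe: `θ i = π/2 * min 1 (log (max i a₀ / a₀) / log N)`, `δ i = 4 D / (max i a₀ * log N)`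
(`|log s - log t| ≤ |s - t| / min s t`, `max i' a₀ ≥ max i a₀ / 2`), and
`∑ 1 / max i a₀ ≤ (3D+1)/a₀ + log ((N a₀ + 3D)/a₀) ≤ log N + 2`; the total is `≤ 16 C D² (log N + 2) / (log N)² → 0`. -/
theorem prof (D : ℕ) (C ε : ℝ) (hC : 0 ≤ C) (hε : 0 < ε) : ∃ N₀ : ℕ, ∀ N : ℕ, N₀ ≤ N → ∀ a₀ : ℕ, 3 * D + 1 ≤ a₀ →
    ∃ θ δ : ℤ → ℝ, (∀ i, θ i ∈ Set.Icc 0 (Real.pi / 2)) ∧ (∀ i, i ≤ (a₀ : ℤ) → θ i = 0) ∧
      (∀ i, (N * a₀ : ℤ) ≤ i → θ i = Real.pi / 2) ∧ (∀ i i' : ℤ, |i - i'| ≤ D → |θ i - θ i'| ≤ δ i) ∧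
      ∑ i ∈ Finset.Icc ((a₀ : ℤ) - 3 * D) (N * a₀ + 3 * D), C * ((max i a₀ : ℤ) : ℝ) * δ i ^ 2 ≤ ε := by
  refine ⟨⌈Real.exp (max 2 (32 * C * D ^ 2 / ε))⌉₊, fun N hN a ha => ?_⟩
  have hN1 : Real.exp (max 2 (32 * C * D ^ 2 / ε)) ≤ N := Nat.ceil_le.1 hN
  have hN0 : (0 : ℝ) < N := (Real.exp_pos _).trans_le hN1
  have hL := (Real.le_log_iff_exp_le hN0).2 hN1
  rw [max_le_iff] at hL
  obtain ⟨hL2, hL3⟩ := hL
  have hL0 : 0 < Real.log N := by linarith
  have hN2 : 1 ≤ N := by exact_mod_cast hN0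
  have h0 : (0 : ℝ) < a := by exact_mod_cast (by omega : 0 < a)
  have hm : ∀ i : ℤ, (a : ℝ) ≤ ((max i a : ℤ) : ℝ) := fun i => by exact_mod_cast le_max_right i (a : ℤ)
  have hp := Real.pi_pos
  refine ⟨fun i => Real.pi / 2 * min 1 ((Real.log ((max i a : ℤ) : ℝ) - Real.log a) / Real.log N),
    fun i => 4 * D / (((max i a : ℤ) : ℝ) * Real.log N), fun i => ⟨?_, ?_⟩, fun i hi => ?_, fun i hi => ?_,
    fun i i' hi => ?_, ?_⟩
  · have := Real.log_le_log h0 (hm i)
    exact mul_nonneg (by positivity) (le_min zero_le_one (div_nonneg (by linarith) hL0.le))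
  · exact mul_le_of_le_one_right (by positivity) (min_le_left _ _)
  · simp [max_eq_right hi]
  · have h1 : (N : ℝ) * a ≤ ((max i a : ℤ) : ℝ) := by exact_mod_cast hi.trans (le_max_left i (a : ℤ))
    have h2 := Real.log_le_log (by positivity) h1
    rw [Real.log_mul hN0.ne' h0.ne'] at h2
    beta_reduce
    rw [min_eq_left ((one_le_div hL0).2 (by linarith)), mul_one]
  · have h1 : |((max i a : ℤ) : ℝ) - ((max i' a : ℤ) : ℝ)| ≤ D := by
      have := (abs_max_sub_max_le_abs i i' (a : ℤ)).trans hi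
      exact_mod_cast this
    have h2 : (3 * D + 1 : ℝ) ≤ a := by exact_mod_cast ha
    have h3 := hm i
    beta_reduce
    generalize ((max i a : ℤ) : ℝ) = s at *
    generalize ((max i' a : ℤ) : ℝ) = t at *
    have hs : 0 < s := h0.trans_le h3
    have h4 := prof_log (m := s / 2) (s := s) (t := t) (by positivity) (by linarith) (by linarith [(abs_le.1 h1).2])
    have h5 := abs_min_sub_min_le_max 1 ((Real.log s - Real.log a) / Real.log N) 1 ((Real.log t - Real.log a) / Real.log N)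
    rw [sub_self, abs_zero, max_eq_right (abs_nonneg _), ← sub_div, sub_sub_sub_cancel_right, abs_div, abs_of_pos hL0] at h5
    rw [← mul_sub, abs_mul, abs_of_pos (by positivity : 0 < Real.pi / 2)]
    refine (mul_le_mul (show Real.pi / 2 ≤ 2 by linarith [Real.pi_le_four]) (h5.trans (div_le_div_of_nonneg_right
      (h4.trans (div_le_div_of_nonneg_right h1 (by positivity))) hL0.le)) (abs_nonneg _) zero_le_two).trans_eq ?_
    field_simp
    ring
  · obtain ⟨n, hn⟩ : ∃ n, N * a + 3 * D = a + n := ⟨N * a + 3 * D - a, by have := Nat.le_mul_of_pos_left a hN2; omega⟩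
    have h1 := prof_sum (3 * D) a n ha
    have e1 : (a : ℤ) + n = N * a + 3 * D := by exact_mod_cast hn.symm
    have e2 : (a : ℝ) + n = N * a + 3 * D := by exact_mod_cast hn.symm
    have h2 : (3 * D + 1 : ℝ) ≤ a := by exact_mod_cast ha
    have h3 : (1 : ℝ) ≤ N := by exact_mod_cast hN2
    have h4 : Real.log (a + n) ≤ Real.log (2 * N * a) := Real.log_le_log (by positivity) (by rw [e2]; nlinarith)
    rw [Real.log_mul (by positivity) h0.ne', Real.log_mul two_ne_zero hN0.ne'] at h4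
    have h5 := Real.log_two_lt_d9
    rw [e1, Nat.cast_mul, Nat.cast_ofNat] at h1
    rw [Finset.sum_congr rfl (g := fun i => 16 * C * D ^ 2 / Real.log N ^ 2 * (((max i a : ℤ) : ℝ))⁻¹) fun i _ => by
      have := h0.trans_le (hm i)
      field_simp
      ring, ← Finset.mul_sum]
    refine (mul_le_mul_of_nonneg_left (h1.trans (show _ ≤ 2 * Real.log N by linarith)) (by positivity)).trans ?_
    rw [div_le_iff₀ hε] at hL3
    rw [div_mul_eq_mul_div, div_le_iff₀ (by positivity)]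
    nlinarith

end Crest.Agent.R189
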