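import Crest.Agent.R189.B6.ZoneA

/-! # Row 189, B6: local rules respect the names in a zone; tameness. -/

set_option autoImplicit false

namespace Crest.Agent.R189

open Equiv Classical SFT

namespace ZH

variable {X : SFT} {H : Hier X.Pt} {b : Bool} {T K M : ℕ} (Z : ZH H b T K M) {L r : ℕ}

theorem abs_ediv_le (hM : 0 < M) {c : ℤ} (h : |c| < K * M) : |c / M| ≤ K := by
  have hM : (0 : ℤ) < M := by exact_mod_cast hM
  rw [abs_lt] at h
  have a1 : -(K : ℤ) ≤ c / M := (Int.le_ediv_iff_mul_le hM).2 (by linarith)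
  have a2 : c / M < K := (Int.ediv_lt_iff_lt_mul hM).2 h.2
  rw [abs_le]
  omega

theorem win_ty {y y' : X.Pt} (hy : y ∈ H.Y b) (h0 : Z.j y = 0) (hD : Z.D y) (hy' : y' ∈ H.Y b) (h0' : Z.j y' = 0)
    (hD' : Z.D y') (h : Z.ty y = Z.ty y') {i s : ℤ} (h1 : Z.a + r ≤ i) (h2 : i + r ≤ Z.a + K * M)
    (h3 : |s| + r < K * M) : agree r (xy b i s +ᵥ y) (xy b i s +ᵥ y') := by
  intro w hw
  have c1 := cr_bdd hw b
  have c2 := cr_bdd hw (!b)
  rw [val_xy, val_xy]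
  refine Z.cell hy h0 hy' h0' (by omega) (by omega) (Z.rw_eq_of_ty hy h0 hD hy' h0' hD' h (abs_ediv_le Z.pos ?_))
  rw [Int.abs_eq_natAbs] at *
  omega

theorem fst_nm {y : X.Pt} (hy : y ∈ H.Y b) (i c : ℤ) (l : Lv) : (Z.nm L (xy b i c +ᵥ y, l)).1 = i - Z.a := by
  rw [Z.nm_vadd hy]

theorem sh_nm {y : X.Pt} (hy : y ∈ H.Y b) (h0 : Z.j y = 0) (i c : ℤ) (l : Lv) :
    sh (Z.nm L (xy b i c +ᵥ y, l)) = (Z.rw y (c / M), (c : ZMod M), l) := by
  rw [Z.nm_vadd hy]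
  exact Z.nmY_sh hy h0 c l

theorem cls_aux (hL : 2 * L ≤ K * M) (hL' : 2 * M ≤ L) (hr : r ≤ M) {g : Perm (X.Pt × Lv)} {u : X.Pt × Lv → V × Lv}
    (hu : Rule r g u) {z z' : X.Pt × Lv} (hz : z ∈ WP H b) (hz' : z' ∈ WP H b) (h1 : (r : ℤ) ≤ (Z.nm L z).1)
    (h2 : (Z.nm L z).1 + r ≤ K * M) (h3 : 0 ≤ ht (Z.nm L z)) (h3' : 0 ≤ ht (Z.nm L z'))
    (h4 : (Z.nm L z).1 = (Z.nm L z').1) (h5 : sh (Z.nm L z) = sh (Z.nm L z')) :
    u z = u z' ∧ (Z.nm L (g z)).1 = (Z.nm L (g z')).1 ∧ sh (Z.nm L (g z)) = sh (Z.nm L (g z')) := by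
  obtain ⟨y, i, c, l, hy, h0, a1, a2, rfl⟩ := Z.rep_row hz
  obtain ⟨y', i', c', l', hy', h0', a1', a2', rfl⟩ := Z.rep_row hz'
  have k := fun c'' => Z.rw_clear (c' := c'') hL hL' hy h0 a1 a2 h3
  have k' := fun c'' => Z.rw_clear (c' := c'') hL hL' hy' h0' a1' a2' h3'
  rw [Z.fst_nm hy] at h1 h2 h4
  rw [Z.fst_nm hy'] at h4
  rw [Z.sh_nm hy h0, Z.sh_nm hy' h0', k c (by omega) (by omega), k' c' (by omega) (by omega)] at h5
  simp only [Prod.mk.injEq] at h5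
  obtain ⟨h5, h6, rfl⟩ := h5
  obtain rfl : i = i' := by omega
  obtain rfl : c = c' := by
    rw [ZMod.intCast_eq_intCast_iff', Int.emod_eq_of_lt a1 a2, Int.emod_eq_of_lt a1' a2'] at h6
    exact h6
  have e : u (xy b i c +ᵥ y, l) = u (xy b i c +ᵥ y', l) := hu.loc _ _ l fun w hw => by
    have c1 := cr_bdd hw b
    have c2 := cr_bdd hw (!b)
    rw [val_xy, val_xy]
    refine Z.cell hy h0 hy' h0' (by omega) (by omega) ?_
    rw [k _ (by omega) (by omega), k' _ (by omega) (by omega), h5]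
  have c2 := cr_bdd (hu.bdd (xy b i c +ᵥ y, l)) (!b)
  refine ⟨e, ?_⟩
  rw [hu.act, hu.act, ← e, Z.fst_nm hy, Z.fst_nm hy', Z.sh_nm hy h0, Z.sh_nm hy' h0', k _ (by omega) (by omega),
    k' _ (by omega) (by omega), h5]
  exact ⟨rfl, rfl⟩

theorem ok (hL : 2 * L ≤ K * M) (hr : r < M) {lo hi K' : ℤ} (hK' : 0 ≤ K') (hL' : K' + 2 * M + r ≤ L)
    (hlo : (r : ℤ) ≤ lo) (hhi : hi + r ≤ K * M) {g : Perm (X.Pt × Lv)} (hg : Coc r g) :
    Ok (WP H b) (Z.nm L) ln ht sh lo hi r K' g := by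
  obtain ⟨u, hu⟩ := hg
  have hL2 : (2 * L : ℤ) ≤ K * M := by exact_mod_cast hL
  refine ⟨?_, ?_, ?_, ?_, ?_, ?_⟩
  · intro z hz
    obtain ⟨y, i, c, l, hy, -, -, -, rfl⟩ := Z.rep_row hz
    rw [hu.act]
    exact H.vadd_mem_WX b hy _ _
  · intro z hz
    obtain ⟨y, i, c, l, hy, -, -, -, rfl⟩ := Z.rep_row hz
    have c1 := cr_bdd (hu.bdd (xy b i c +ᵥ y, l)) b
    rw [hu.act, Z.fst_nm hy, Z.fst_nm hy, abs_le]
    omega
  · intro z hz _ _ h
    obtain ⟨y, i, s, l, hy, h0, hD, hs, rfl⟩ := Z.rep_near (L := L) hz (by omega)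
    have c2 := cr_bdd (hu.bdd (xy b i s +ᵥ y, l)) (!b)
    rw [Z.nm_near hL hy h0 hD i hs] at h ⊢
    simp only [ht, Int.abs_eq_natAbs] at h
    rw [hu.act, Z.nm_near hL hy h0 hD _ (by rw [Int.abs_eq_natAbs]; omega)]
    simp only [ht, Int.abs_eq_natAbs]
    omega
  · intro z hz z' hz' h1 h2 h h'
    obtain ⟨y', i', s', l', hy', h0', hD', hs', rfl⟩ := Z.rep_near (L := L) hz' (by rw [← h']; omega)
    obtain ⟨y, i, s, l, hy, h0, hD, hs, rfl⟩ := Z.rep_near (L := L) hz (by omega)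
    have c2 := cr_bdd (hu.bdd (xy b i s +ᵥ y, l)) (!b)
    rw [Z.nm_near hL hy h0 hD i hs] at h h' h1 h2
    rw [Z.nm_near hL hy' h0' hD' i' hs'] at h'
    simp only [ht, Int.abs_eq_natAbs, Prod.mk.injEq, sub_left_inj] at h h' h1 h2
    obtain ⟨rfl, hd, rfl, -, -, rfl⟩ := h'
    rw [hu.act, hu.act, ← hu.loc _ _ l (Z.win_ty hy h0 hD hy' h0' hD' hd (by omega) (by omega) (by omega)),
      Z.nm_near hL hy h0 hD _ (by rw [Int.abs_eq_natAbs]; omega),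
      Z.nm_near hL hy' h0' hD' _ (by rw [Int.abs_eq_natAbs]; omega), hd,
      Z.rw_eq_of_ty hy h0 hD hy' h0' hD' hd (abs_ediv_le Z.pos (by rw [Int.abs_eq_natAbs]; omega))]
  · intro z hz z' hz' h1 h2 _ _ h3 h4 h3' h4' h
    simp only [ln, Prod.mk.injEq, decide_eq_decide] at h ⊢
    obtain ⟨e, e1, e2⟩ := Z.cls_aux hL (by omega) hr.le hu hz hz' (by omega) (by omega) h3 h3' h.2.2.1 h.2.2.2
    simp only [e1, show (Z.nm L (g z)).2.2.2 = (Z.nm L (g z')).2.2.2 from e2, and_true]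
    refine ⟨?_, ?_⟩
    all_goals
      obtain ⟨y', i', s', l', hy', h0', hD', hs', rfl⟩ := Z.rep_near (L := L) hz' (by omega)
      obtain ⟨y, i, s, l, hy, h0, hD, hs, rfl⟩ := Z.rep_near (L := L) hz (by omega)
      have c2 := cr_bdd (hu.bdd (xy b i s +ᵥ y, l)) (!b)
      rw [Z.nm_near hL hy h0 hD i hs] at h h3 h4
      rw [Z.nm_near hL hy' h0' hD' i' hs'] at h h3' h4'
      simp only [ht, Int.abs_eq_natAbs] at h h3 h4 h3' h4'
      rw [hu.act, hu.act, ← e, Z.nm_near hL hy h0 hD _ (by rw [Int.abs_eq_natAbs]; omega),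
        Z.nm_near hL hy' h0' hD' _ (by rw [Int.abs_eq_natAbs]; omega)]
    · exact ⟨h.1, by dsimp only; omega⟩
    · simp only [Z.nm_near hL hy h0 hD i hs, Z.nm_near hL hy' h0' hD' i' hs', ht, Int.abs_eq_natAbs]
      omega
  · intro z hz z' hz' h1 h2 h3 h3' h4 h5
    exact (Z.cls_aux hL (by omega) hr.le hu hz hz' (by omega) (by omega) h3 h3' h4 h5).2

/-- the values of the random set are tame -/
theorem tame (L : ℕ) (a₁ b₁ : ℤ) (Θ : ℤ × N1 T M → Prop) :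
    Tame H b {z | z ∈ WP H b ∧ if a₁ ≤ (Z.nm L z).1 ∧ (Z.nm L z).1 ≤ b₁ then Θ (Z.nm L z) else b₁ < (Z.nm L z).1} := by
  obtain ⟨R, hR⟩ := Z.loc
  have : NeZero M := ⟨Z.pos.ne'⟩
  refine ⟨a₁.natAbs + b₁.natAbs + Z.a.natAbs + 1 + R + (L + 1 + M), fun y hy i l hi => ?_,
    fun y hy i l hi => ?_, fun y hy y' hy' ha i l hz => ?_⟩
  · refine ⟨H.vadd_mem_WX b hy _ _, ?_⟩
    rw [Z.fst_nm hy, if_neg (by omega)]
    omega
  · rintro ⟨-, h⟩
    rw [Z.fst_nm hy, if_neg (by omega)] at h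
    omega
  · refine ⟨H.vadd_mem_WX b hy' _ _, ?_⟩
    suffices Z.nm L (xy b i 0 +ᵥ y', l) = Z.nm L (xy b i 0 +ᵥ y, l) by
      rw [this]
      exact hz.2
    have k : ∀ c : ℤ, |c| ≤ (L + 1 + M : ℕ) → agree R (xy b 0 c +ᵥ y) (xy b 0 c +ᵥ y') := fun c hc =>
      (ha.mono (by omega)).vadd (xy_mem_box b (by rw [abs_zero]; positivity) hc)
    have e : Z.sN L y' = Z.sN L y := by
      unfold sN pick
      congr! 2
      all_goals
        refine funext fun s => propext (and_congr_right fun hs => ?_)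
        have := hR _ _ (k (-s) (by rw [abs_neg]; omega))
        simp only [this.1, this.2.2]
    have hs : |Z.sN L y| ≤ L + 1 := abs_pick_le _ _
    have hv : ((Z.j y).val : ℤ) < M := by exact_mod_cast ZMod.val_lt _
    rw [Z.nm_vadd hy, Z.nm_vadd hy', xy_zero, zero_vadd, zero_vadd]
    simp only [nmY, ty, ZH.rw, e, xy_vadd, add_zero, ← (hR y y' (ha.mono (by omega))).1]
    rw [abs_le] at hs
    rw [(hR _ _ (k (-1 * M + -Z.sN L y) (by rw [abs_le]; omega))).2.1,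
      (hR _ _ (k (0 * M + -Z.sN L y) (by rw [abs_le]; omega))).2.1,
      (hR _ _ (k (1 * M + -Z.sN L y) (by rw [abs_le]; omega))).2.1,
      (hR _ _ (k (-((Z.j y).val : ℤ)) (by rw [abs_le]; omega))).2.1]

end ZH

end Crest.Agent.R189
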