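import Crest.Agent.R189.B6.Wall
import Crest.Agent.R189.B6.Prof
import Crest.Agent.R189.B6.ZoneB

/-! # Row 189, B6: the almost invariant random tame set at one wall. -/

set_option autoImplicit false

namespace Crest.Agent.R189

open Equiv Classical
open scoped Pointwise

theorem exists_ZH {X : SFT} {H : Hier X.Pt} {b : Bool} (hZ : SFT.Zone H b) :
    ∃ T : ℕ, ∀ K M0 : ℕ, ∃ M, M0 < M ∧ Nonempty (ZH H b T K M) := by
  obtain ⟨T, hZ⟩ := hZ
  refine ⟨T, fun K M0 => ?_⟩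
  obtain ⟨M, a, j, ρ, D, h0, h1, h2, h3, h4, h5, h6, h7⟩ := hZ K M0
  obtain ⟨R, hR⟩ := SFT.isLocallyConstant_iff.1 (h1.prodMk (h2.prodMk h3))
  refine ⟨M, h0, ⟨⟨a, j, ρ, D, by omega, h4, h5, h6, h7, R, fun y y' h => ?_⟩⟩⟩
  have := hR y y' h
  simp only [Prod.mk.injEq] at this
  exact ⟨this.1, this.2.1, this.2.2.to_iff⟩

theorem wall_rp {X : SFT} (H : Hier X.Pt) (b : Bool) (hZ : SFT.Zone H b) (r : ℕ) (ε : ℝ) (hε : 0 < ε) :
    ∃ μ : RP (Set (X.Pt × Lv)), (∀ i, Tame H b (μ.a i)) ∧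
      ∀ g : Perm (X.Pt × Lv), Coc r g → Coc r g⁻¹ → μ.Inv (g • ·) ε := by
  obtain ⟨T, hZ⟩ := exists_ZH hZ
  obtain ⟨N₀, hN₀⟩ := prof r (12 * (5 * T ^ 4 + T)) ((ε / 4) ^ 2) (by positivity) (by positivity)
  obtain ⟨N₁, hN₁⟩ := exists_nat_ge (1536 * T ^ 4 * r ^ 2 / (ε / 4) ^ 2)
  obtain ⟨N, hN⟩ : ∃ N, N = N₀ + N₁ + 1 := ⟨_, rfl⟩
  obtain ⟨K, hK⟩ : ∃ K, K = 8 * N ^ 3 + 18 * N ^ 2 + 10 := ⟨_, rfl⟩
  obtain ⟨M, hM, ⟨Z⟩⟩ := hZ K (6 * r)
  have : NeZero M := ⟨Z.pos.ne'⟩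
  obtain ⟨k, hk⟩ : ∃ k, k = N ^ 2 * M := ⟨_, rfl⟩
  have hN1 : 1 ≤ N := by omega
  have hk1 : M ≤ k := hk ▸ Nat.le_mul_of_pos_left _ (by positivity)
  have hk2 : K * M = N * (8 * k) + 18 * k + 10 * M := by rw [hK, hk]; ring
  have hk3 : 8 * k ≤ N * (8 * k) := Nat.le_mul_of_pos_left _ hN1
  obtain ⟨θ, δ, h1, h2, h3, h4, h5⟩ := hN₀ N (by omega) (8 * k) (by omega)
  let I := Finset.Icc (((8 * k : ℕ) : ℤ) - 3 * r) (N * (8 * k : ℕ) + 3 * r)
  let fib : Finset (ZH.N1 T M ⊕ Fin T × ZMod M × Lv) :=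
    ((Finset.univ ×ˢ Finset.Icc (-(10 * k : ℤ)) (10 * k) ×ˢ Finset.univ).image
      fun c : (Fin T × Fin T × Fin T) × ℤ × Fin T × Lv => (c.1, c.2.1, c.2.2.1, (c.2.1 : ZMod M), c.2.2.2)).disjSum
      Finset.univ
  have hcast : ((K * M : ℕ) : ℤ) = K * M := by push_cast; rfl
  have hcast' : ((N * (8 * k) : ℕ) : ℤ) = N * (8 * k : ℕ) := by push_cast; rfl
  have hL : 2 * (9 * k + 2 * M + r) ≤ K * M := by omega
  obtain ⟨μ, hμ, hμ'⟩ := wall_abs (ZH.WP H b) (Z.nm (9 * k + 2 * M + r)) ZH.ln ZH.ht ZH.sh ((8 * k : ℕ) - r)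
    (N * (8 * k : ℕ) + r) r k (by positivity) (by omega) (by omega) (by omega) θ δ h1 (fun i hi => h2 i (by omega))
    (fun i hi => h3 i (by omega)) h4 (Finset.univ ×ˢ Finset.univ ×ˢ I ×ˢ Finset.univ) (I ×ˢ fib)
    (fun z hz a1 a2 => by
      simp only [ZH.ln, Finset.mem_product, Finset.mem_univ, and_true, true_and, I, Finset.mem_Icc]
      omega)
    (fun z hz a1 a2 a3 => by
      obtain ⟨y, i, s, l, hy, h0, hD, hs, rfl⟩ := Z.rep_near (L := 9 * k + 2 * M + r) hz (by omega)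
      rw [Z.nm_near hL hy h0 hD i hs] at a1 a2 a3 ⊢
      simp only [ZH.ht, Int.abs_eq_natAbs] at a1 a2 a3
      simp only [I, fib, Finset.mem_Icc, Finset.inl_mem_disjSum, Finset.mem_product]
      refine ⟨by omega, Finset.mem_image.2 ⟨(_, s, _, l), ?_, rfl⟩⟩
      simp only [Finset.mem_Icc, Finset.mem_product, Finset.mem_univ, and_true, true_and]
      omega)
    (fun z hz a1 a2 => by
      simp only [I, fib, Finset.mem_Icc, Finset.mem_product, Finset.inr_mem_disjSum, Finset.mem_univ, and_true]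
      omega)
  refine ⟨μ, fun i => ?_, fun g hg hg' => (hμ' g
    (Z.ok hL (by omega) (by positivity) (by omega) (by omega) (by omega) hg)
    (Z.ok hL (by omega) (by positivity) (by omega) (by omega) (by omega) hg')).mono ?_⟩
  · obtain ⟨Θ, h⟩ := hμ i
    rw [h]
    exact Z.tame _ _ _ Θ
  have e : ε = 2 * (ε / 4) + 2 * (ε / 4) := by ring
  rw [e]
  gcongr
  · rw [Real.sqrt_le_left (by positivity), Finset.sum_product]
    refine le_trans (Finset.sum_le_sum fun i _ => ?_) h5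
    simp only [Finset.sum_const, nsmul_eq_mul]
    refine mul_le_mul_of_nonneg_right ?_ (by positivity)
    obtain ⟨n, hn⟩ : ∃ n : ℕ, max i ((8 * k : ℕ) : ℤ) = n := ⟨_, (Int.toNat_of_nonneg (by omega)).symm⟩
    have : fib.card ≤ 12 * (5 * T ^ 4 + T) * n := by
      simp only [fib, Finset.card_disjSum]
      refine (add_le_add_left Finset.card_image_le _).trans ?_
      simp only [Finset.card_product, Finset.card_univ, Fintype.card_prod, ZMod.card, Fintype.card_fin, Int.card_Icc]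
      have e1 : (10 * (k : ℤ) + 1 - -(10 * k)).toNat ≤ 5 * n := by omega
      have e2 : M ≤ n := by omega
      calc _ ≤ T * (T * T) * (5 * n * (T * 12)) + T * (n * 12) := by gcongr
        _ = _ := by ring
    rw [hn]
    exact_mod_cast this
  · rw [Real.sqrt_le_left (by positivity)]
    have h6 : ((Finset.univ : Finset (Fin T × Fin T × Fin T)) ×ˢ (Finset.univ : Finset Bool) ×ˢ I ×ˢ
        (Finset.univ : Finset (Fin T × ZMod M × Lv))).card ≤ T * (T * T) * (2 * (N * (8 * k) * (T * (M * 12)))) := by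
      simp only [I, Finset.card_product, Finset.card_univ, ZMod.card, Fintype.card_fin, Int.card_Icc, Fintype.card_bool,
        Fintype.card_prod]
      gcongr
      omega
    have h7 : (N₁ : ℝ) ≤ N := by exact_mod_cast (by omega : N₁ ≤ N)
    have h8 : (0 : ℝ) < N := by exact_mod_cast hN1
    have h9 : (0 : ℝ) < M := by exact_mod_cast Z.pos
    refine (mul_le_mul_of_nonneg_right (Nat.cast_le.2 h6) (by positivity)).trans ?_
    rw [div_le_iff₀ (by positivity)] at hN₁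
    have e2 : ((T * (T * T) * (2 * (N * (8 * k) * (T * (M * 12)))) : ℕ) : ℝ) *
        (2 * (2 * ((r : ℤ) : ℝ)) ^ 2 / (k : ℝ) ^ 2) = 1536 * T ^ 4 * r ^ 2 / N := by
      rw [hk]
      push_cast
      field_simp
      ring
    rw [e2, div_le_iff₀ h8]
    nlinarith [mul_le_mul_of_nonneg_right h7 (sq_nonneg (ε / 4))]

end Crest.Agent.R189
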