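import Crest.Agent.R189.Iface
import Crest.Agent.R189.B6.Strip
import Crest.Agent.R189.B6.Loc

/-! # Row 189, B6: `S` is amenable. -/

set_option autoImplicit false

namespace Crest.Agent.R189

open Equiv
open scoped Pointwise

theorem Coc.mono {X : SFT} {r s : ℕ} {g : Perm (X.Pt × Lv)} (h : Coc r g) (hrs : r ≤ s) : Coc s g := by
  obtain ⟨u, hu⟩ := h
  exact ⟨u, hu.app, fun z => box_mono hrs (hu.bdd z), fun x y l hxy => hu.loc x y l (hxy.mono hrs)⟩

theorem coc_phi {X : SFT} (f : X.Pt → Perm Lv) (hf : IsLocallyConstant f) : ∃ r, Coc r (phi f) := by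
  obtain ⟨r, hr⟩ := SFT.isLocallyConstant_iff.mp hf
  refine ⟨r, fun z => (0, f z.1 z.2), fun z => ?_, fun z => zero_mem_box r, fun x y l hxy => ?_⟩
  · obtain ⟨x, l⟩ := z
    simp
  · simp only [hr x y hxy]

theorem coc_lev {X : SFT} (v : Lv → V) : ∃ r, Coc r (lev X.Pt v) := by
  obtain ⟨r, hr⟩ := exists_subset_box (Finset.univ.image v)
  exact ⟨r, fun z => (v z.2, z.2), fun z => rfl, fun z => hr (Finset.mem_image_of_mem _ (Finset.mem_univ _)),
    fun x y l _ => rfl⟩

theorem Coc.mul {X : SFT} {r s : ℕ} {g h : Perm (X.Pt × Lv)} (hg : Coc r g) (hh : Coc s h) :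
    Coc (r + s) (g * h) := by
  obtain ⟨u, hu⟩ := hg
  obtain ⟨w, hw⟩ := hh
  refine ⟨fun z => ((u (h z)).1 + (w z).1, (u (h z)).2), fun z => ?_, fun z => add_mem_box (hu.bdd _) (hw.bdd _),
    fun x y l hxy => ?_⟩
  · rw [Perm.mul_apply, hu.app (h z), add_vadd]
    congr 2
    rw [hw.app z]
  · have e1 : w (x, l) = w (y, l) := hw.loc x y l (hxy.mono (Nat.le_add_left s r))
    have e2 : u (h (x, l)) = u (h (y, l)) := by
      rw [hw.app (x, l), hw.app (y, l), ← e1]
      exact hu.loc _ _ _ (hxy.vadd (hw.bdd (x, l)))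
    simp only [e1, e2]

/-- every element of `S` has a local rule (closure induction; generators and their inverses) -/
theorem exists_coc {X : SFT} (g : Perm (X.Pt × Lv)) (hg : g ∈ X.S) : ∃ r, Coc r g := by
  induction hg using Subgroup.closure_induction'' with
  | mem g hg =>
    rcases hg with ⟨f, hf, -, rfl⟩ | ⟨v, -, rfl⟩
    · exact coc_phi f hf
    · exact coc_lev v
  | inv_mem g hg =>
    rcases hg with ⟨f, hf, -, rfl⟩ | ⟨v, -, rfl⟩
    · have e : (phi f)⁻¹ = phi (fun x => (f x)⁻¹) := by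
        rw [inv_eq_iff_mul_eq_one]
        refine Equiv.ext fun ⟨x, i⟩ => ?_
        simp
      rw [e]
      exact coc_phi _ (hf.comp fun σ => σ⁻¹)
    · have e : (lev X.Pt v)⁻¹ = lev X.Pt (fun i => -v i) := by
        rw [inv_eq_iff_mul_eq_one]
        refine Equiv.ext fun ⟨x, i⟩ => ?_
        simp
      rw [e]
      exact coc_lev _
  | one => exact ⟨0, fun z => (0, z.2), fun z => by simp, fun z => zero_mem_box 0, fun x y l _ => rfl⟩
  | mul g h _ _ hg hh =>
    obtain ⟨r, hr⟩ := hg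
    obtain ⟨s, hs⟩ := hh
    exact ⟨r + s, hr.mul hs⟩

/-- a common radius for finitely many elements of `S` and their inverses -/
theorem exists_coc_finset {X : SFT} (F : Finset X.S) :
    ∃ r, ∀ g ∈ F, Coc r (g : Perm (X.Pt × Lv)) ∧ Coc r (g : Perm (X.Pt × Lv))⁻¹ := by
  choose ρ hρ using fun g : X.S => exists_coc (g : Perm (X.Pt × Lv)) g.2
  refine ⟨F.sup fun g => max (ρ g) (ρ g⁻¹), fun g hg => ⟨(hρ g).mono ?_, (hρ g⁻¹).mono ?_⟩⟩
  · exact (le_max_left _ _).trans (Finset.le_sup (f := fun g => max (ρ g) (ρ g⁻¹)) hg)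
  · exact (le_max_right _ _).trans (Finset.le_sup (f := fun g => max (ρ g) (ρ g⁻¹)) hg)

/-- Recipe: `amenable_of_action` with `Ω = Set _ × Set _`, `μ = (wall_rp true).prod (wall_rp false)`, `RP.Inv.prod`,
`finite_of_tame` (transport along `Subgroup.subtype`). -/
theorem s_B6 : S_B6 := by
  intro X G
  refine amenable_of_action (G := X.S) (Ω := Set (X.Pt × Lv) × Set (X.Pt × Lv)) fun F ε hε => ?_
  obtain ⟨r, hr⟩ := exists_coc_finset F
  obtain ⟨μ, hμ, hμ'⟩ := wall_rp G.H true (G.zone true) r (ε / 2) (half_pos hε)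
  obtain ⟨ν, hν, hν'⟩ := wall_rp G.H false (G.zone false) r (ε / 2) (half_pos hε)
  refine ⟨μ.prod ν, fun i F' hF' => ?_, fun g hg => ?_⟩
  · classical
    obtain ⟨r', hr'⟩ := exists_coc_finset F'
    have hfin := finite_of_tame G.H (μ.a i.1) (ν.a i.2) (hμ _) (hν _) r' (F'.image X.S.subtype) (by
      intro g hg
      obtain ⟨g', hg', rfl⟩ := Finset.mem_image.mp hg
      have h := MulAction.mem_stabilizer_iff.mp (hF' g' hg')
      exact ⟨(hr' g' hg').1, congrArg Prod.fst h, congrArg Prod.snd h⟩)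
    rw [Finset.coe_image, ← MonoidHom.map_closure] at hfin
    exact Finite.of_equiv _ (Subgroup.equivMapOfInjective _ _ X.S.subtype_injective).toEquiv.symm
  · have h := (hμ' g (hr g hg).1 (hr g hg).2).prod (hν' g (hr g hg).1 (hr g hg).2)
    rw [add_halves] at h
    exact h

end Crest.Agent.R189
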