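import Crest.Agent.R189.B6.Coin
import Crest.Agent.R189.B6.Front

/-! # Row 189, B6: the abstract wall (fronts, then coins). -/

set_option autoImplicit false

namespace Crest.Agent.R189

open Equiv Classical
open scoped Pointwise

theorem wall_mix {P N₀ I : Type} [Fintype I] (p : I → ℝ) (hp0 : ∀ x, 0 ≤ p x) (hp1 : ∑ x, p x = 1) (W : Set P) (col : P → ℤ)
    (a b : ℤ) (𝒩 : Finset (ℤ × N₀)) (θ : ℤ → ℝ) (lab : I → P → N₀) :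
    ∃ μ : RP (Set P), (∀ i, ∃ x ω, μ.a i = ES W col a b 𝒩 (lab x) ω) ∧
      ∀ f, μ.E f = ∑ x, p x * Phi W col a b 𝒩 θ (lab x) f := by
  refine ⟨{ ι := I × (𝒩 → Bool)
            p := fun i => p i.1 * cw (fun c : 𝒩 => θ c.1.1) i.2
            a := fun i => ES W col a b 𝒩 (lab i.1) i.2
            nonneg := fun i => mul_nonneg (hp0 _) (cw_nonneg _ _)
            sum := ?_ }, fun i => ⟨i.1, i.2, rfl⟩, fun f => ?_⟩
  · have : ∑ ω : 𝒩 → Bool, cw (fun c : 𝒩 => θ c.1.1) ω = 1 := by convert sum_cw fun c : 𝒩 => θ c.1.1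
    rw [Fintype.sum_prod_type]
    simp only [← Finset.mul_sum, this, mul_one, hp1]
  · simp only [RP.E, Phi, Finset.mul_sum, mul_assoc]
    exact Fintype.sum_prod_type _

/-- the name below / above the front `X` -/
noncomputable def wallLb {N₁ N₂ : Type} (ht : ℤ × N₁ → ℤ) (sh : ℤ × N₁ → N₂) (X : ℤ × N₁ → ℤ) (n : ℤ × N₁) : N₁ ⊕ N₂ :=
  if ht n < X n then Sum.inl n.2 else Sum.inr (sh n)

theorem wall_dir {P N₁ L N₂ : Type} {W : Set P} {nm : P → ℤ × N₁} {ln : ℤ × N₁ → L} {ht : ℤ × N₁ → ℤ} {sh : ℤ × N₁ → N₂}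
    {lo hi D K : ℤ} {g : Perm P} (hg : Ok W nm ln ht sh lo hi D K g) {X X' : ℤ × N₁ → ℤ} (hX : ∀ n, 0 ≤ X n) {z z' w w' : P}
    (hz : z ∈ W) (hz' : z' ∈ W) (hw : g z = w) (hw' : g z' = w') (h1 : lo ≤ (nm z).1) (h2 : (nm z).1 ≤ hi) (hK : X (nm z) ≤ K)
    (hp : ht (nm z) < X (nm z) ↔ ht (nm w) < X' (nm w)) (hp' : ht (nm z') < X (nm z') ↔ ht (nm w') < X' (nm w'))
    (h : ((nm z).1, wallLb ht sh X (nm z)) = ((nm z').1, wallLb ht sh X (nm z'))) :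
    ((nm w).1, wallLb ht sh X' (nm w)) = ((nm w').1, wallLb ht sh X' (nm w')) := by
  subst hw hw'
  obtain ⟨e1, e2⟩ := Prod.mk.inj h
  unfold wallLb at e2 ⊢
  by_cases c : ht (nm z) < X (nm z) <;> by_cases c' : ht (nm z') < X (nm z')
  · rw [if_pos c, if_pos c'] at e2
    rw [hg.priv z hz z' hz' h1 h2 (c.trans_le hK) (Prod.ext e1 (Sum.inl.inj e2))]
  · rw [if_pos c, if_neg c'] at e2
    exact absurd e2 Sum.inl_ne_inr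
  · rw [if_neg c, if_pos c'] at e2
    exact absurd e2 Sum.inr_ne_inl
  · rw [if_neg c, if_neg c'] at e2
    obtain ⟨e3, e4⟩ := hg.cls z hz z' hz' h1 h2 ((hX _).trans (not_lt.1 c)) ((hX _).trans (not_lt.1 c')) e1 (Sum.inr.inj e2)
    rw [if_neg fun h => c (hp.2 h), if_neg fun h => c' (hp'.2 h), e3, e4]

/-- Recipe: `μ.ι = (𝓕 → ZMod (8k)) × (𝒩 → Bool)`, weight `(∏ rho (x φ)) * cw (θ c.1.1) ω`, value
`ES W col a b 𝒩 (lab x) ω` with `lab x z = if ht (nm z) < (look 𝓕 0 x (ln (nm z))).val then inl (nm z).2 else inr (sh (nm z))`;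
so `μ.E f = ∑ x, (∏ rho) * Phi (lab x) f`.  For `g`: `R = {z ∈ W, a - D ≤ col z ≤ b + D, 2D ≤ ht < 8k}`, `σ` from
`exists_perm_ext 𝓕 R (ln ∘ nm) (ln ∘ nm ∘ g)` (`Ok.line` for `g`, and for `g⁻¹` at `g z`), `e φ = ht (g z) - ht z` for a
`z ∈ R` on the line `φ`, else `0`; `x' φ = x (σ⁻¹ φ) + e (σ⁻¹ φ)`.  If `∏ rho (x φ) ≠ 0` (`rho_supp`, `val_add_of`: values of `x`
in `(k, 7k)`, of `x'` in `(k - 2D, 7k + 2D)`) then for `z ∈ W` in columns `[a - D, b + D]`: `z` is private for `x` iff `g z` is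
private for `x'` (cases `ht < 2D`, `z ∈ R`, `8k ≤ ht`), hence `coin_step` applies to `lab x`, `lab x'` (`Ok.priv`, `Ok.cls` for `g`
and `g⁻¹`).  Finish with `front_bound` for `G x = Phi (lab x) f`, `D₂ = 2D`. -/
theorem wall_abs {P N₁ L N₂ : Type} (W : Set P) (nm : P → ℤ × N₁) (ln : ℤ × N₁ → L) (ht : ℤ × N₁ → ℤ)
    (sh : ℤ × N₁ → N₂) (a b D : ℤ) (k : ℕ) (hD0 : 0 ≤ D) (hab : a + D ≤ b) (hk0 : 0 < k) (hk : 6 * D ≤ k)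
    (θ δ : ℤ → ℝ) (hθ : ∀ i, θ i ∈ Set.Icc 0 (Real.pi / 2)) (hθ0 : ∀ i, i ≤ a + D → θ i = 0)
    (hθ1 : ∀ i, b - D ≤ i → θ i = Real.pi / 2) (hδ : ∀ i i', |i - i'| ≤ D → |θ i - θ i'| ≤ δ i)
    (𝓕 : Finset L) (𝒩 : Finset (ℤ × (N₁ ⊕ N₂)))
    (hF : ∀ z ∈ W, a - 2 * D ≤ (nm z).1 → (nm z).1 ≤ b + 2 * D → ln (nm z) ∈ 𝓕)
    (hN1 : ∀ z ∈ W, a - 2 * D ≤ (nm z).1 → (nm z).1 ≤ b + 2 * D → ht (nm z) < 8 * k →
      ((nm z).1, Sum.inl (nm z).2) ∈ 𝒩)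
    (hN2 : ∀ z ∈ W, a - 2 * D ≤ (nm z).1 → (nm z).1 ≤ b + 2 * D → ((nm z).1, Sum.inr (sh (nm z))) ∈ 𝒩) :
    ∃ μ : RP (Set P), (∀ i, ∃ Θ : ℤ × N₁ → Prop,
        μ.a i = {z | z ∈ W ∧ if a ≤ (nm z).1 ∧ (nm z).1 ≤ b then Θ (nm z) else b < (nm z).1}) ∧
      ∀ g : Perm P, Ok W nm ln ht sh (a - 2 * D) (b + 2 * D) D (9 * k) g →
        Ok W nm ln ht sh (a - 2 * D) (b + 2 * D) D (9 * k) g⁻¹ →
        μ.Inv (g • ·) (2 * Real.sqrt (∑ c ∈ 𝒩, δ c.1 ^ 2) +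
          2 * Real.sqrt (𝓕.card * (2 * (2 * (D : ℝ)) ^ 2 / (k : ℝ) ^ 2))) := by
  have : NeZero (8 * k) := ⟨by omega⟩
  have hp0 : ∀ x : 𝓕 → ZMod (8 * k), 0 ≤ ∏ φ, rho k (x φ) := fun x => Finset.prod_nonneg fun φ _ => rho_nonneg k _
  have hp1 : ∑ x : 𝓕 → ZMod (8 * k), ∏ φ, rho k (x φ) = 1 := by
    have := Finset.prod_univ_sum (fun _ : 𝓕 => (Finset.univ : Finset (ZMod (8 * k)))) fun _ v => rho k v
    rw [Fintype.piFinset_univ] at this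
    simp only [← this, sum_rho, Finset.prod_const_one]
  obtain ⟨X, hX⟩ : ∃ X : (𝓕 → ZMod (8 * k)) → ℤ × N₁ → ℤ, X = fun x n => ((look 𝓕 0 x (ln n)).val : ℤ) := ⟨_, rfl⟩
  have hX0 : ∀ x n, 0 ≤ X x n := fun x n => by rw [hX]; positivity
  have hX1 : ∀ x n (h : ln n ∈ 𝓕), X x n = (x ⟨ln n, h⟩).val := fun x n h => by simp only [hX, look, dif_pos h]
  obtain ⟨μ, hμ, hE⟩ := wall_mix _ hp0 hp1 W (fun z => (nm z).1) a b 𝒩 θ fun x z => wallLb ht sh (X x) (nm z)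
  refine ⟨μ, fun i => ?_, fun g hg hg' f hf => ?_⟩
  · obtain ⟨x, ω, h⟩ := hμ i
    exact ⟨fun n => look 𝒩 false ω (n.1, wallLb ht sh (X x) n) = true, h⟩
  have hc : ∀ z ∈ W, a - D ≤ (nm z).1 → (nm z).1 ≤ b + D → (a - 2 * D ≤ (nm z).1 ∧ (nm z).1 ≤ b + 2 * D) ∧
      a - 2 * D ≤ (nm (g z)).1 ∧ (nm (g z)).1 ≤ b + 2 * D := fun z hz h1 h2 => by
    have := abs_le.1 (hg.col z hz)
    omega
  obtain ⟨R, hR⟩ : ∃ R : Set P, ∀ z, z ∈ R ↔ z ∈ W ∧ (a - D ≤ (nm z).1 ∧ (nm z).1 ≤ b + D) ∧ 2 * D ≤ ht (nm z) ∧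
      ht (nm z) < 8 * k := ⟨{z | _}, fun _ => Iff.rfl⟩
  have hR' : ∀ z ∈ R, z ∈ W ∧ (a - 2 * D ≤ (nm z).1 ∧ (nm z).1 ≤ b + 2 * D) ∧
      (a - 2 * D ≤ (nm (g z)).1 ∧ (nm (g z)).1 ≤ b + 2 * D) ∧ (0 ≤ ht (nm z) ∧ ht (nm z) < 9 * k) ∧
      (0 ≤ ht (nm (g z)) ∧ ht (nm (g z)) < 9 * k) ∧ |ht (nm (g z)) - ht (nm z)| ≤ 2 * D := fun z hz => by
    obtain ⟨h0, h1, h2, h3⟩ := (hR z).1 hz
    obtain ⟨h4, h5⟩ := hc z h0 h1.1 h1.2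
    have h6 := hg.hts z h0 h4.1 h4.2 (by omega)
    have := abs_le.1 h6
    exact ⟨h0, h4, h5, by omega, by omega, h6⟩
  have hl : ∀ z ∈ R, ∀ z' ∈ R, ln (nm z) = ln (nm z') →
      ln (nm (g z)) = ln (nm (g z')) ∧ ht (nm (g z)) - ht (nm z) = ht (nm (g z')) - ht (nm z') := fun z hz z' hz' => by
    obtain ⟨h0, h1, -, h2, -⟩ := hR' z hz
    obtain ⟨h3, h4, -, h5, -⟩ := hR' z' hz'
    exact hg.line z h0 z' h3 h1.1 h1.2 h4.1 h4.2 h2.1 h2.2 h5.1 h5.2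
  have m1 : ∀ z ∈ R, ln (nm z) ∈ 𝓕 := fun z hz => hF z (hR' z hz).1 (hR' z hz).2.1.1 (hR' z hz).2.1.2
  have m2 : ∀ z ∈ R, ln (nm (g z)) ∈ 𝓕 := fun z hz => hF _ (hg.mem z (hR' z hz).1) (hR' z hz).2.2.1.1 (hR' z hz).2.2.1.2
  obtain ⟨σ, hσ⟩ := exists_perm_ext 𝓕 R (fun z => ln (nm z)) (fun z => ln (nm (g z))) m1 m2 fun z hz z' hz' =>
    ⟨fun h => (hl z hz z' hz' h).1, fun h => by
      obtain ⟨h0, -, h1, -, h2, -⟩ := hR' z hz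
      obtain ⟨h3, -, h4, -, h5, -⟩ := hR' z' hz'
      simpa using (hg'.line _ (hg.mem z h0) _ (hg.mem z' h3) h1.1 h1.2 h4.1 h4.2 h2.1 h2.2 h5.1 h5.2 h).1⟩
  obtain ⟨e, he, he'⟩ : ∃ e : 𝓕 → ℤ, (∀ φ, |e φ| ≤ 2 * D) ∧
      ∀ z (hz : z ∈ R), e ⟨ln (nm z), m1 z hz⟩ = ht (nm (g z)) - ht (nm z) := by
    refine ⟨fun φ => if h : ∃ z ∈ R, ln (nm z) = φ.1 then ht (nm (g h.choose)) - ht (nm h.choose) else 0, fun φ => ?_,
      fun z hz => ?_⟩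
    · dsimp only
      split_ifs with h
      · exact (hR' _ h.choose_spec.1).2.2.2.2.2
      · rw [abs_zero]; omega
    · have h : ∃ z' ∈ R, ln (nm z') = ln (nm z) := ⟨z, hz, rfl⟩
      exact (dif_pos h).trans (hl _ h.choose_spec.1 z hz h.choose_spec.2).2
  have hB := front_bound k σ e (2 * D) he (by omega)
    (fun x => Phi W (fun z => (nm z).1) a b 𝒩 θ (fun z => wallLb ht sh (X x) (nm z)) f) fun x => abs_Phi_le _ _ _ _ _ _ _ _ hf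
  obtain ⟨T, hT⟩ : ∃ T : (𝓕 → ZMod (8 * k)) → 𝓕 → ZMod (8 * k),
      T = fun x φ => x (σ⁻¹ φ) + (e (σ⁻¹ φ) : ZMod (8 * k)) := ⟨_, rfl⟩
  have key : ∀ x : 𝓕 → ZMod (8 * k), ∏ φ, rho k (x φ) ≠ 0 →
      |Phi W (fun z => (nm z).1) a b 𝒩 θ (fun z => wallLb ht sh (X x) (nm z)) (fun E => f (g • E)) -
        Phi W (fun z => (nm z).1) a b 𝒩 θ (fun z => wallLb ht sh (X (T x)) (nm z)) f| ≤
        2 * Real.sqrt (∑ c ∈ 𝒩, δ c.1 ^ 2) := fun x hx => by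
    have s1 : ∀ φ, (k : ℤ) < (x φ).val ∧ ((x φ).val : ℤ) < 7 * k := fun φ =>
      rho_supp k (Finset.prod_ne_zero_iff.1 hx φ (Finset.mem_univ φ))
    have s2 : ∀ φ, ((T x φ).val : ℤ) = (x (σ⁻¹ φ)).val + e (σ⁻¹ φ) := fun φ => by
      have := s1 (σ⁻¹ φ)
      have := abs_le.1 (he (σ⁻¹ φ))
      rw [hT]
      exact val_add_of k (by omega) (by omega)
    have s3 : ∀ z ∈ W, a - D ≤ (nm z).1 → (nm z).1 ≤ b + D → X x (nm z) < 8 * k ∧ X (T x) (nm (g z)) < 8 * k ∧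
        (ht (nm z) < X x (nm z) ↔ ht (nm (g z)) < X (T x) (nm (g z))) := fun z hz h1 h2 => by
      obtain ⟨h3, h4⟩ := hc z hz h1 h2
      have f1 := hF z hz h3.1 h3.2
      have f2 := hF _ (hg.mem z hz) h4.1 h4.2
      rw [hX1 _ _ f1, hX1 _ _ f2, s2]
      have t1 := s1 ⟨_, f1⟩
      have t2 := s1 (σ⁻¹ ⟨_, f2⟩)
      have t3 := abs_le.1 (he (σ⁻¹ ⟨_, f2⟩))
      refine ⟨by omega, by omega, ?_⟩
      by_cases c1 : ht (nm z) < 2 * D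
      · have := abs_le.1 (hg.hts z hz h3.1 h3.2 (by omega))
        omega
      by_cases c2 : ht (nm z) < 8 * k
      · have hz' := (hR z).2 ⟨hz, ⟨h1, h2⟩, not_lt.1 c1, c2⟩
        rw [show σ⁻¹ ⟨_, f2⟩ = ⟨_, f1⟩ from Perm.inv_eq_iff_eq.2 (hσ z hz').symm, he' z hz']
        omega
      · refine ⟨fun h => by omega, fun h => ?_⟩
        have := abs_le.1 (hg'.hts _ (hg.mem z hz) h4.1 h4.2 (by omega))
        rw [show g⁻¹ (g z) = z from g.symm_apply_apply z] at this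
        omega
    refine coin_step W _ a b D 𝒩 θ δ g hD0 hab (fun z => ⟨fun h => by simpa using hg'.mem _ h, hg.mem z⟩) hg.col hθ hθ0 hθ1 hδ
      _ _ (fun z hz h1 h2 => ?_) (fun z hz z' hz' h1 h2 h1' h2' => ?_) f hf
    · obtain ⟨h3, h4⟩ := hc z hz h1 h2
      obtain ⟨t1, t2, -⟩ := s3 z hz h1 h2
      unfold wallLb
      constructor <;> split_ifs with c
      exacts [hN1 z hz h3.1 h3.2 (c.trans t1), hN2 z hz h3.1 h3.2, hN1 _ (hg.mem z hz) h4.1 h4.2 (c.trans t2),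
        hN2 _ (hg.mem z hz) h4.1 h4.2]
    · obtain ⟨h3, h4⟩ := hc z hz h1 h2
      obtain ⟨t1, t2, t3⟩ := s3 z hz h1 h2
      obtain ⟨-, -, t4⟩ := s3 z' hz' h1' h2'
      exact ⟨wall_dir hg (hX0 _) hz hz' rfl rfl h3.1 h3.2 (by omega) t3 t4,
        wall_dir hg' (hX0 _) (hg.mem z hz) (hg.mem z' hz') (g.symm_apply_apply z) (g.symm_apply_apply z') h4.1 h4.2 (by omega)
          t3.symm t4.symm⟩
  rw [hE, hE]
  refine (abs_sub_le _ (∑ x : 𝓕 → ZMod (8 * k), (∏ φ, rho k (x φ)) *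
    Phi W (fun z => (nm z).1) a b 𝒩 θ (fun z => wallLb ht sh (X (T x)) (nm z)) f) _).trans (add_le_add ?_ ?_)
  · rw [← Finset.sum_sub_distrib, ← one_mul (2 * _), ← hp1, Finset.sum_mul]
    refine (Finset.abs_sum_le_sum_abs _ _).trans (Finset.sum_le_sum fun x _ => ?_)
    rw [← mul_sub, abs_mul, abs_of_nonneg (hp0 x)]
    by_cases hx : ∏ φ, rho k (x φ) = 0
    · rw [hx, zero_mul, zero_mul]
    · exact mul_le_mul_of_nonneg_left (key x hx) (hp0 x)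
  · rw [hT]
    rw [Fintype.card_coe] at hB
    push_cast at hB
    refine le_of_eq_of_le ?_ hB
    congr!

end Crest.Agent.R189
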