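import Crest.Agent.R189.B6.Crd

/-! # Row 189, B6: names, lines, heights and classes in a zone along a wall; local rules respect them. -/

set_option autoImplicit false

noncomputable section

namespace Crest.Agent.R189

open Equiv Classical SFT

theorem Rule.act {X : SFT} {r : ℕ} {g : Perm (X.Pt × Lv)} {u : X.Pt × Lv → V × Lv} (h : Rule r g u) (b : Bool)
    (i j : ℤ) (y : X.Pt) (l : Lv) : g (xy b i j +ᵥ y, l) = (xy b (cr b (u (xy b i j +ᵥ y, l)).1 + i)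
      (cr (!b) (u (xy b i j +ᵥ y, l)).1 + j) +ᵥ y, (u (xy b i j +ᵥ y, l)).2) := by
  rw [h.app, ← xy_add, xy_cr, add_vadd]

theorem val_xy {X : SFT} (y : X.Pt) (b : Bool) (i j : ℤ) (w : V) :
    (xy b i j +ᵥ y).1 w = y.1 (xy b (cr b w + i) (cr (!b) w + j)) := by
  rw [vadd_val, ← xy_add, xy_cr]

theorem xy_vadd {X : SFT} (y : X.Pt) (b : Bool) (i j i' j' : ℤ) :
    xy b i j +ᵥ (xy b i' j' +ᵥ y) = xy b (i + i') (j + j') +ᵥ y := by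
  rw [← add_vadd, xy_add]

/-- a zone with locally constant data -/
structure ZH {X : SFT} (H : Hier X.Pt) (b : Bool) (T K M : ℕ) where
  a : ℤ
  j : X.Pt → ZMod M
  ρ : X.Pt → Fin T
  D : X.Pt → Prop
  pos : 0 < M
  jv : ∀ y ∈ H.Y b, ∀ c : ℤ, j (xy b 0 c +ᵥ y) = j y + c
  pat : ∀ y ∈ H.Y b, ∀ y' ∈ H.Y b, j y = 0 → j y' = 0 → ρ y = ρ y' → ∀ i c : ℤ, a ≤ i → i ≤ a + K * M → 0 ≤ c →
    c < M → y.1 (xy b i c) = y'.1 (xy b i c)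
  step : ∀ y ∈ H.Y b, j y = 0 → ¬ D y → ¬ D (xy b 0 M +ᵥ y) → ρ (xy b 0 M +ᵥ y) = ρ y
  sep : ∀ y ∈ H.Y b, j y = 0 → D y → ∀ n : ℕ, 0 < n → n ≤ K → ¬ D (xy b 0 (n * M) +ᵥ y)
  loc : ∃ R : ℕ, ∀ y y', agree R y y' → j y = j y' ∧ ρ y = ρ y' ∧ (D y ↔ D y')

def pick (L : ℕ) (Q : ℤ → Prop) : ℤ := if h : ∃ s : ℤ, |s| ≤ L ∧ Q s then h.choose else L + 1

theorem abs_pick_le (L : ℕ) (Q : ℤ → Prop) : |pick L Q| ≤ L + 1 := by
  unfold pick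
  split_ifs with h
  · exact h.choose_spec.1.trans (by omega)
  · exact (abs_of_nonneg (by positivity)).le

theorem pick_spec {L : ℕ} {Q : ℤ → Prop} (h : |pick L Q| ≤ L) : Q (pick L Q) := by
  unfold pick at h ⊢
  split_ifs at h ⊢ with h'
  · exact h'.choose_spec.2
  · rw [abs_of_nonneg (by positivity)] at h
    omega

theorem pick_le {L : ℕ} {Q : ℤ → Prop} {s : ℤ} (h : |s| ≤ L) (hQ : Q s) : |pick L Q| ≤ L := by
  have h' : ∃ s : ℤ, |s| ≤ L ∧ Q s := ⟨s, h, hQ⟩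
  rw [pick, dif_pos h']
  exact h'.choose_spec.1

namespace ZH

variable {X : SFT} {H : Hier X.Pt} {b : Bool} {T K M : ℕ} (Z : ZH H b T K M) (L : ℕ)

/-- type of the row number `n` above the row starting at `y` -/
def rw (y : X.Pt) (n : ℤ) : Fin T := Z.ρ (xy b 0 (n * M) +ᵥ y)

/-- height above the nearest defect -/
def sN (y : X.Pt) : ℤ := pick L fun s => Z.j (xy b 0 (-s) +ᵥ y) = 0 ∧ Z.D (xy b 0 (-s) +ᵥ y)

/-- type of a defect -/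
def ty (y : X.Pt) : Fin T × Fin T × Fin T := (Z.rw y (-1), Z.rw y 0, Z.rw y 1)

/-- private names -/
abbrev N1 (T M : ℕ) := (Fin T × Fin T × Fin T) × ℤ × Fin T × ZMod M × Lv

def nmY (y : X.Pt) (l : Lv) : N1 T M :=
  (Z.ty (xy b 0 (-Z.sN L y) +ᵥ y), Z.sN L y, Z.ρ (xy b 0 (-((Z.j y).val : ℤ)) +ᵥ y), Z.j y, l)

def nm (z : X.Pt × Lv) : ℤ × N1 T M := (H.col b z.1 - Z.a, Z.nmY L (xy b (-H.col b z.1) 0 +ᵥ z.1) z.2)

def ln (c : ℤ × N1 T M) : (Fin T × Fin T × Fin T) × Bool × ℤ × Fin T × ZMod M × Lv :=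
  (c.2.1, decide (0 ≤ c.2.2.1), c.1, c.2.2.2)

def ht (c : ℤ × N1 T M) : ℤ := |c.2.2.1| - 2 * M

def sh (c : ℤ × N1 T M) : Fin T × ZMod M × Lv := c.2.2.2

def WP (H : Hier X.Pt) (b : Bool) : Set (X.Pt × Lv) := {z | z.1 ∈ H.WX b}

variable {L}

theorem j_row {y : X.Pt} (hy : y ∈ H.Y b) (h0 : Z.j y = 0) (n : ℤ) : Z.j (xy b 0 (n * M) +ᵥ y) = 0 := by
  simp [Z.jv y hy, h0]

theorem not_D {y : X.Pt} (hy : y ∈ H.Y b) (h0 : Z.j y = 0) (hD : Z.D y) {n : ℤ} (hn : n ≠ 0) (hK : |n| ≤ K) :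
    ¬ Z.D (xy b 0 (n * M) +ᵥ y) := by
  rw [Int.abs_eq_natAbs] at hK
  rcases lt_or_gt_of_ne hn with h | h
  · intro h'
    refine Z.sep _ (H.vadd_mem_Y b hy _) (Z.j_row hy h0 n) h' n.natAbs (by omega) (by omega) ?_
    rwa [xy_vadd, show (n.natAbs : ℤ) = -n by omega, add_zero, neg_mul, neg_add_cancel, xy_zero, zero_vadd]
  · have := Z.sep y hy h0 hD n.natAbs (by omega) (by omega)
    rwa [show (n.natAbs : ℤ) = n by omega] at this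

theorem rw_succ {y : X.Pt} (hy : y ∈ H.Y b) (h0 : Z.j y = 0) {n : ℤ} (h1 : ¬ Z.D (xy b 0 (n * M) +ᵥ y))
    (h2 : ¬ Z.D (xy b 0 ((n + 1) * M) +ᵥ y)) : Z.rw y (n + 1) = Z.rw y n := by
  have e : xy b 0 ((n + 1) * M) +ᵥ y = xy b 0 M +ᵥ (xy b 0 (n * M) +ᵥ y) := by
    rw [xy_vadd]
    congr 2
    ring
  rw [e] at h2
  rw [ZH.rw, e]
  exact Z.step _ (H.vadd_mem_Y b hy _) (Z.j_row hy h0 n) h1 h2

theorem rw_eq_of_ty {y y' : X.Pt} (hy : y ∈ H.Y b) (h0 : Z.j y = 0) (hD : Z.D y) (hy' : y' ∈ H.Y b) (h0' : Z.j y' = 0)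
    (hD' : Z.D y') (h : Z.ty y = Z.ty y') {n : ℤ} (hK : |n| ≤ K) : Z.rw y n = Z.rw y' n := by
  simp only [ty, Prod.mk.injEq] at h
  induction n using Int.induction_on with
  | zero => exact h.2.1
  | succ n ih =>
    rcases Nat.eq_zero_or_pos n with rfl | hn
    · simpa using h.2.2
    · have h1 : |(n : ℤ)| ≤ K := by rw [abs_le] at hK ⊢; omega
      rw [Z.rw_succ hy h0 (Z.not_D hy h0 hD (by omega) h1) (Z.not_D hy h0 hD (by omega) hK),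
        Z.rw_succ hy' h0' (Z.not_D hy' h0' hD' (by omega) h1) (Z.not_D hy' h0' hD' (by omega) hK), ih h1]
  | pred n ih =>
    rcases Nat.eq_zero_or_pos n with rfl | hn
    · simpa using h.1
    · have h1 : |(-n - 1 + 1 : ℤ)| ≤ K := by rw [abs_le] at hK ⊢; omega
      rw [← Z.rw_succ hy h0 (Z.not_D hy h0 hD (by omega) hK) (Z.not_D hy h0 hD (by omega) h1),
        ← Z.rw_succ hy' h0' (Z.not_D hy' h0' hD' (by omega) hK) (Z.not_D hy' h0' hD' (by omega) h1)]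
      rw [sub_add_cancel] at h1 ⊢
      exact ih h1

theorem cell {y y' : X.Pt} (hy : y ∈ H.Y b) (h0 : Z.j y = 0) (hy' : y' ∈ H.Y b) (h0' : Z.j y' = 0) {i c : ℤ}
    (h1 : Z.a ≤ i) (h2 : i ≤ Z.a + K * M) (h : Z.rw y (c / M) = Z.rw y' (c / M)) : y.1 (xy b i c) = y'.1 (xy b i c) := by
  have hM : (0 : ℤ) < M := by exact_mod_cast Z.pos
  have := Z.pat _ (H.vadd_mem_Y b hy _) _ (H.vadd_mem_Y b hy' _) (Z.j_row hy h0 _) (Z.j_row hy' h0' _) h i (c % M) h1 h2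
    (Int.emod_nonneg _ hM.ne') (Int.emod_lt_of_pos _ hM)
  simpa only [vadd_val, xy_add, add_zero, Int.emod_add_ediv_mul] using this

theorem sN_eq (hL : 2 * L ≤ K * M) {y : X.Pt} (hy : y ∈ H.Y b) (h0 : Z.j y = 0) (hD : Z.D y) {s : ℤ} (hs : |s| ≤ L) :
    Z.sN L (xy b 0 s +ᵥ y) = s := by
  have h1 : |Z.sN L (xy b 0 s +ᵥ y)| ≤ L := pick_le hs (by simp [xy_vadd, xy_zero, h0, hD])
  have h2 := pick_spec h1
  change Z.j (xy b 0 (-Z.sN L (xy b 0 s +ᵥ y)) +ᵥ _) = 0 ∧ Z.D (xy b 0 (-Z.sN L (xy b 0 s +ᵥ y)) +ᵥ _) at h2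
  generalize Z.sN L (xy b 0 s +ᵥ y) = s' at h1 h2
  rw [xy_vadd, add_zero, Z.jv y hy, h0, zero_add, ZMod.intCast_zmod_eq_zero_iff_dvd] at h2
  obtain ⟨⟨n, hn⟩, h3⟩ := h2
  rw [hn, mul_comm] at h3
  have hM : (0 : ℤ) < M := by exact_mod_cast Z.pos
  have : n = 0 := by
    by_contra h
    refine Z.not_D hy h0 hD h (le_of_mul_le_mul_right ?_ hM) h3
    have e : |n| * M = |-s' + s| := by rw [hn, abs_mul, abs_of_pos hM, mul_comm]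
    have : (2 * L : ℤ) ≤ K * M := by exact_mod_cast hL
    rw [e]
    rw [abs_le] at *
    omega
  subst this
  omega

theorem nm_vadd {y : X.Pt} (hy : y ∈ H.Y b) (i c : ℤ) (l : Lv) :
    Z.nm L (xy b i c +ᵥ y, l) = (i - Z.a, Z.nmY L (xy b 0 c +ᵥ y) l) := by
  simp only [nm, H.col_vadd b hy, xy_vadd, neg_add_cancel, zero_add]

theorem nmY_sh {y : X.Pt} (hy : y ∈ H.Y b) (h0 : Z.j y = 0) (c : ℤ) (l : Lv) :
    (Z.nmY L (xy b 0 c +ᵥ y) l).2.2 = (Z.rw y (c / M), (c : ZMod M), l) := by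
  have : NeZero M := ⟨Z.pos.ne'⟩
  simp only [nmY, Z.jv y hy, h0, zero_add, ZMod.val_intCast, xy_vadd, ZH.rw, add_zero]
  congr 4
  linarith [Int.emod_add_ediv_mul c M]

theorem nm_near (hL : 2 * L ≤ K * M) {y : X.Pt} (hy : y ∈ H.Y b) (h0 : Z.j y = 0) (hD : Z.D y) (i : ℤ) {s : ℤ}
    (hs : |s| ≤ L) (l : Lv) :
    Z.nm L (xy b i s +ᵥ y, l) = (i - Z.a, Z.ty y, s, Z.rw y (s / M), (s : ZMod M), l) := by
  rw [Z.nm_vadd hy, ← Z.nmY_sh (L := L) hy h0]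
  simp only [nmY, Z.sN_eq hL hy h0 hD hs, xy_vadd, add_zero, neg_add_cancel, xy_zero, zero_vadd]

theorem rep_near {z : X.Pt × Lv} (hz : z ∈ WP H b) (h : ht (Z.nm L z) + 2 * M ≤ L) : ∃ (y : X.Pt) (i s : ℤ) (l : Lv),
    y ∈ H.Y b ∧ Z.j y = 0 ∧ Z.D y ∧ |s| ≤ L ∧ z = (xy b i s +ᵥ y, l) := by
  obtain ⟨x, l⟩ := z
  obtain ⟨y, i, c, hy, -, -, -, rfl⟩ := H.exists_rep b 0 (x := x) hz
  rw [Z.nm_vadd hy] at h
  have h1 : |Z.sN L (xy b 0 c +ᵥ y)| ≤ L := by simpa [ht, nmY] using h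
  have h2 := pick_spec h1
  refine ⟨_, i, _, l, H.vadd_mem_Y b (H.vadd_mem_Y b hy c) _, h2.1, h2.2, h1, ?_⟩
  simp only [xy_vadd, add_zero, sN, add_neg_cancel_left]

theorem rep_row {z : X.Pt × Lv} (hz : z ∈ WP H b) : ∃ (y : X.Pt) (i c : ℤ) (l : Lv),
    y ∈ H.Y b ∧ Z.j y = 0 ∧ 0 ≤ c ∧ c < M ∧ z = (xy b i c +ᵥ y, l) := by
  have : NeZero M := ⟨Z.pos.ne'⟩
  obtain ⟨x, l⟩ := z
  obtain ⟨y, i, c, hy, -, -, -, rfl⟩ := H.exists_rep b 0 (x := x) hz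
  have hy' := H.vadd_mem_Y b hy c
  refine ⟨xy b 0 (-((Z.j (xy b 0 c +ᵥ y)).val : ℤ)) +ᵥ (xy b 0 c +ᵥ y), i, (Z.j (xy b 0 c +ᵥ y)).val, l,
    H.vadd_mem_Y b hy' _, ?_, by positivity, by exact_mod_cast ZMod.val_lt _, ?_⟩
  · rw [Z.jv _ hy']
    simp
  · simp only [xy_vadd, add_zero, add_neg_cancel_left]

theorem rw_clear (hL : 2 * L ≤ K * M) (hL' : 2 * M ≤ L) {y : X.Pt} (hy : y ∈ H.Y b) (h0 : Z.j y = 0) {i c : ℤ} {l : Lv}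
    (h1 : 0 ≤ c) (h2 : c < M) (h : 0 ≤ ht (Z.nm L (xy b i c +ᵥ y, l))) {c' : ℤ} (h3 : -(M : ℤ) ≤ c') (h4 : c' < 2 * M) :
    Z.rw y (c' / M) = Z.rw y 0 := by
  have hM : (0 : ℤ) < M := by exact_mod_cast Z.pos
  have key : ∀ s : ℤ, |s| < 2 * M → ∀ n : ℤ, s + n * M = c → ¬ Z.D (xy b 0 (n * M) +ᵥ y) := fun s hs n e hD => by
    have := Z.nm_near hL (H.vadd_mem_Y b hy _) (Z.j_row hy h0 n) hD i (s := s) (by omega) l
    rw [xy_vadd, add_zero, e] at this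
    rw [this] at h
    simp only [ht] at h
    omega
  have k0 := key c (by rw [abs_lt]; omega) 0 (by ring)
  have a1 : -1 ≤ c' / M := (Int.le_ediv_iff_mul_le hM).2 (by omega)
  have a2 : c' / M < 2 := (Int.ediv_lt_iff_lt_mul hM).2 h4
  obtain e | e | e : c' / M = -1 ∨ c' / M = 0 ∨ c' / M = 0 + 1 := by omega
  · rw [e]
    exact (Z.rw_succ hy h0 (key (c + M) (by rw [abs_lt]; omega) (-1) (by ring)) (by simpa using k0)).symm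
  · rw [e]
  · rw [e]
    exact Z.rw_succ hy h0 k0 (key (c - M) (by rw [abs_lt]; omega) (0 + 1) (by ring))

end ZH

end Crest.Agent.R189

end
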