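import Crest.Agent.R189.B6.Crd

/-! # Row 189: in `SFT.Zone` the row types and the defects can be made locally constant. -/

set_option autoImplicit false

namespace Crest.Agent.R189

open Classical SFT

/-- `SFT.Zone` without local constancy of `ρ` and `D` -/
def SFT.ZoneW {X : SFT} (H : Hier X.Pt) (b : Bool) : Prop :=
  ∃ T : ℕ, ∀ K M0 : ℕ, ∃ (M : ℕ) (a : ℤ) (j : X.Pt → ZMod M) (ρ : X.Pt → Fin T) (D : X.Pt → Prop),
    M0 < M ∧ IsLocallyConstant j ∧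
    (∀ y ∈ H.Y b, ∀ c : ℤ, j (xy b 0 c +ᵥ y) = j y + c) ∧
    (∀ y ∈ H.Y b, ∀ y' ∈ H.Y b, j y = 0 → j y' = 0 → ρ y = ρ y' → ∀ i c : ℤ, a ≤ i → i ≤ a + K * M →
      0 ≤ c → c < M → y.1 (xy b i c) = y'.1 (xy b i c)) ∧
    (∀ y ∈ H.Y b, j y = 0 → ¬ D y → ¬ D (xy b 0 M +ᵥ y) → ρ (xy b 0 M +ᵥ y) = ρ y) ∧
    (∀ y ∈ H.Y b, j y = 0 → D y → ∀ n : ℕ, 0 < n → n ≤ K → ¬ D (xy b 0 (n * M) +ᵥ y))

theorem zone_of_weak {X : SFT} {H : Hier X.Pt} {b : Bool} (h : SFT.ZoneW H b) : SFT.Zone H b := by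
  obtain ⟨T, h⟩ := h
  refine ⟨T, fun K M0 => ?_⟩
  obtain ⟨M, a, j, ρ, D, h0, h1, h2, h3, h4, h5⟩ := h (K + 3) M0
  let pat : X.Pt → ℤ → ℤ → Option X.A := fun y i c =>
    if a ≤ i ∧ i ≤ a + (K + 3 : ℕ) * M ∧ 0 ≤ c ∧ c < M then some (y.1 (xy b i c)) else none
  have hpat : IsLocallyConstant pat := isLocallyConstant_iff.2 ⟨a.natAbs + (K + 3) * M + M, fun y y' hy => by
    funext i c
    simp only [pat]
    split_ifs with hr
    · have e : (((K + 3) * M : ℕ) : ℤ) = (K + 3 : ℕ) * M := by push_cast; rfl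
      have : (0 : ℤ) ≤ (K + 3 : ℕ) * M := by positivity
      rw [hy _ (xy_mem_box b (by rw [abs_le]; omega) (by rw [abs_le]; omega))]
    · rfl⟩
  have hρ : ∀ y ∈ H.Y b, ∀ y' ∈ H.Y b, j y = 0 → j y' = 0 → ρ y = ρ y' → pat y = pat y' := fun y hy y' hy' a1 a2 a3 => by
    funext i c
    simp only [pat]
    split_ifs with hr
    · rw [h3 y hy y' hy' a1 a2 a3 i c hr.1 hr.2.1 hr.2.2.1 hr.2.2.2]
    · rfl
  let rep : (ℤ → ℤ → Option X.A) → X.Pt := fun p => epsilon fun y => y ∈ H.Y b ∧ j y = 0 ∧ pat y = p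
  have hrep : ∀ y ∈ H.Y b, j y = 0 → rep (pat y) ∈ H.Y b ∧ j (rep (pat y)) = 0 ∧ pat (rep (pat y)) = pat y :=
    fun y hy a1 => epsilon_spec (p := fun y' => y' ∈ H.Y b ∧ j y' = 0 ∧ pat y' = pat y) ⟨y, hy, a1, rfl⟩
  let P : X.Pt → ℤ → ℤ → ℤ → Option X.A := fun y n => pat (xy b 0 (n * M) +ᵥ y)
  have hP : ∀ n, IsLocallyConstant fun y => P y n := fun n => hpat.comp_continuous (continuous_const_vadd _)
  have hPv : ∀ y n m, P (xy b 0 (m * M) +ᵥ y) n = P y (n + m) := fun y n m => by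
    simp only [P, ← add_vadd, xy_add, add_mul, add_zero]
  have hj : ∀ y ∈ H.Y b, j y = 0 → ∀ n : ℤ, j (xy b 0 (n * M) +ᵥ y) = 0 := fun y hy a1 n => by simp [h2 y hy, a1]
  have hch : ∀ y ∈ H.Y b, j y = 0 → ∀ n : ℤ, P y (n + 1) ≠ P y n →
      ∃ d, (d = n ∨ d = n + 1) ∧ D (xy b 0 (d * M) +ᵥ y) := fun y hy a1 n hn => by
    by_contra hc
    push Not at hc
    have e : xy b 0 ((n + 1) * M) +ᵥ y = xy b 0 M +ᵥ (xy b 0 (n * M) +ᵥ y) := by
      rw [← add_vadd, xy_add]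
      congr 2
      ring
    refine hn (hρ _ (H.vadd_mem_Y b hy _) _ (H.vadd_mem_Y b hy _) (hj y hy a1 _) (hj y hy a1 _) ?_)
    rw [e]
    exact h4 _ (H.vadd_mem_Y b hy _) (hj y hy a1 _) (hc _ (.inl rfl)) (e ▸ hc _ (.inr rfl))
  have hsep : ∀ y ∈ H.Y b, j y = 0 → ∀ n n' : ℤ, n + 2 ≤ n' → n' ≤ n + K + 2 → P y (n + 1) ≠ P y n →
      P y (n' + 1) = P y n' := fun y hy a1 n n' a2 a3 a4 => by
    by_contra a5
    obtain ⟨d, hd, hD⟩ := hch y hy a1 n a4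
    obtain ⟨d', hd', hD'⟩ := hch y hy a1 n' a5
    refine h5 _ (H.vadd_mem_Y b hy _) (hj y hy a1 d) hD (d' - d).toNat (by omega) (by omega) ?_
    rwa [← add_vadd, xy_add, add_zero, Int.toNat_of_nonneg (by omega), ← add_mul, sub_add_cancel]
  refine ⟨M, a, j, fun y => ρ (rep (pat y)), fun y => P y 0 ≠ P y (-1) ∧ P y (-1) = P y (-2), h0, h1,
    hpat.comp fun p => ρ (rep p),
    ((hP 0).prodMk ((hP (-1)).prodMk (hP (-2)))).comp fun p => p.1 ≠ p.2.1 ∧ p.2.1 = p.2.2, h2, ?_, ?_, ?_⟩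
  · intro y hy y' hy' a1 a2 a3 i c b1 b2 b3 b4
    obtain ⟨c1, c2, c3⟩ := hrep y hy a1
    obtain ⟨c1', c2', c3'⟩ := hrep y' hy' a2
    have := congrFun (congrFun ((c3.symm.trans (hρ _ c1 _ c1' c2 c2' a3)).trans c3') i) c
    have hr : a ≤ i ∧ i ≤ a + (K + 3 : ℕ) * M ∧ 0 ≤ c ∧ c < M := ⟨b1, by push_cast; nlinarith, b3, b4⟩
    simpa only [pat, if_pos hr, Option.some.injEq] using this
  · intro y hy a1 a2 a3
    have e := hPv y
    rw [← one_mul (M : ℤ)] at a3 ⊢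
    simp only [e] at a3
    have : P y 1 = P y 0 := by
      by_contra a4
      have a5 : P y 0 ≠ P y (-1) := fun a5 => a3 ⟨a4, a5⟩
      exact a4 (hsep y hy a1 (-2) 0 (by omega) (by omega) fun a6 => a2 ⟨a5, by simpa using a6⟩)
    simp only [P, zero_mul, xy_zero, zero_vadd] at this
    simp only [this]
  · intro y hy a1 a2 n a3 a4 a5
    simp only [hPv] at a5
    rcases (show n = 1 ∨ 2 ≤ n by omega) with rfl | hn
    · exact a2.1 a5.2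
    · refine a5.1 ?_
      have := hsep y hy a1 (-1) (-1 + n) (by omega) (by omega) a2.1
      rwa [show (-1 + (n : ℤ)) + 1 = 0 + n by ring] at this

end Crest.Agent.R189
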